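import Vale.Agent.P153E.Stmt
import Vale.Agent.P153.A

/-! Internal definitions (FROZEN). -/

open MeasureTheory Filter Topology

noncomputable section

namespace Vale.Agent.P153E

open Vale.Agent.P153

/-- Configurations free in `D`, in `{0, -1}` off `D`, zero off `L`. -/
def AdmE (N : ℕ) (D L : Finset (ℤ × ℤ)) : Set Cfg :=
  {k | Lip k ∧ (∀ x, -((N : ℤ) + 1) ≤ k x ∧ k x ≤ N) ∧
    (∀ x, x ∉ D → k x = 0 ∨ k x = -1) ∧ ∀ x, x ∉ L → k x = 0}

theorem admE_finite (N : ℕ) (D L : Finset (ℤ × ℤ)) : (AdmE N D L).Finite := by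
  have h : (Set.pi Set.univ fun _ : L => Set.Icc (-((N : ℤ) + 1)) N).Finite :=
    Set.Finite.pi fun _ => Set.finite_Icc _ _
  refine Set.Finite.of_finite_image (f := fun (k : Cfg) (x : L) => k x) (h.subset ?_) ?_
  · rintro _ ⟨k, hk, rfl⟩ x -
    exact hk.2.1 x
  · intro k hk k' hk' e
    funext x
    by_cases hx : x ∈ L
    · exact congrFun e ⟨x, hx⟩
    · rw [hk.2.2.2 x hx, hk'.2.2.2 x hx]

def admE (N : ℕ) (D L : Finset (ℤ × ℤ)) : Finset Cfg := (admE_finite N D L).toFinset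

theorem mem_admE {N : ℕ} {D L : Finset (ℤ × ℤ)} {k : Cfg} : k ∈ admE N D L ↔ k ∈ AdmE N D L :=
  Set.Finite.mem_toFinset _

theorem card_admE (N : ℕ) (D L : Finset (ℤ × ℤ)) : 0 < (admE N D L).card :=
  Finset.card_pos.2 ⟨0, mem_admE.2 ⟨lip_zero, fun _ => ⟨by simp only [Pi.zero_apply]; omega,
    by simp⟩, fun _ _ => Or.inl rfl, fun _ _ => rfl⟩⟩

/-- The uniform average. -/
def avE (N : ℕ) (D L : Finset (ℤ × ℤ)) (F : Cfg → ℝ) : ℝ :=
  (∑ k ∈ admE N D L, F k) / (admE N D L).card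

/-- The average on the hexagon of centre `c`. -/
def avH (N : ℕ) (c : ℤ × ℤ) (n : ℕ) (F : Cfg → ℝ) : ℝ := avE N (hexA c n) (hexA c (n + 1)) F

/-- The infinite volume average. -/
def limE (N : ℕ) (F : Cfg → ℝ) : ℝ := limUnder atTop fun n => avH N 0 n F

/-- `L` contains `D` and its neighbours. -/
def Cl (D L : Finset (ℤ × ℤ)) : Prop := ∀ x ∈ D, ∀ y, hx (y - x) ≤ 1 → y ∈ L

/-- `F` depends only on the values in `S`. -/
def LocV (S : Finset (ℤ × ℤ)) (F : Cfg → ℝ) : Prop :=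
  ∀ k k' : Cfg, (∀ x ∈ S, k x = k' x) → F k = F k'

/-- The absolute height, `|2 t + 1| = 2 * ab t + 1`. -/
def ab (t : ℤ) : ℤ := max t (-1 - t)

/-- The sign of `2 t + 1`. -/
def sg (t : ℤ) : ℝ := if 0 ≤ t then 1 else -1

open Classical in
/-- Products of signs times increasing events of the absolute height. -/
def bas (A : List (ℤ × ℤ)) (T : Finset ((ℤ × ℤ) × ℤ)) (k : Cfg) : ℝ :=
  (A.map fun x => sg (k x)).prod * if ∀ p ∈ T, p.2 ≤ ab (k p.1) then 1 else 0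

/-- Sign configurations compatible with the absolute height `H`. -/
def Sgn (L : Finset (ℤ × ℤ)) (H : Cfg) : AddSubgroup (ℤ × ℤ → ZMod 2) where
  carrier := {s | (∀ x, x ∉ L → s x = 0) ∧
    ∀ x y, hx (y - x) ≤ 1 → H x ≠ 0 → s x = s y}
  add_mem' := fun {a b} ha hb => ⟨fun x h => by simp [ha.1 x h, hb.1 x h],
    fun x y h1 h2 => by simp [ha.2 x y h1 h2, hb.2 x y h1 h2]⟩
  zero_mem' := ⟨fun _ _ => rfl, fun _ _ _ _ => rfl⟩
  neg_mem' := fun {a} ha => ⟨fun x h => by simp [ha.1 x h],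
    fun x y h1 h2 => by simp [ha.2 x y h1 h2]⟩

/-- The number of compatible signs. -/
def zz (L : Finset (ℤ × ℤ)) (H : Cfg) : ℝ := Nat.card (Sgn L H)

open Classical in
/-- The sign product over `A` is trivial on all compatible signs. -/
def triv (L : Finset (ℤ × ℤ)) (A : List (ℤ × ℤ)) (H : Cfg) : ℝ :=
  if ∀ s ∈ Sgn L H, (A.map s).sum = 0 then 1 else 0

/-- Absolute heights. -/
def habs (N : ℕ) (D : Finset (ℤ × ℤ)) : Finset Cfg := (admE N D D).filter fun H => ∀ x ∈ D, 0 ≤ H x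

open Classical in
/-- The indicator of a gradient pattern. -/
def pat (S : Finset (ℤ × ℤ)) (η : Cfg) (k : Cfg) : ℝ := if ∀ x ∈ S, k x - k 0 = η x then 1 else 0

end Vale.Agent.P153E
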