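import Vale.Agent.P153E.Defs

/-! Hexagons and patterns. hx is a max of absolute values: `simp only [hx, ...]; omega` (see `mem_hexA` in P153/A1.lean). `Set.ncard_eq_toFinset_card`, `Finset.sum_boole`/`card_filter`. -/

open MeasureTheory Filter Topology

noncomputable section

namespace Vale.Agent.P153E

open Vale.Agent.P153

theorem hx_neg (x : ℤ × ℤ) : hx (-x) = hx x := by
  simp only [hx, Prod.fst_neg, Prod.snd_neg, abs_neg, ← neg_add]

theorem hx_add (x y : ℤ × ℤ) : hx (x + y) ≤ hx x + hx y := by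
  have h1 := abs_add_le x.1 y.1
  have h2 := abs_add_le x.2 y.2
  have h3 := abs_add_le (x.1 + x.2) (y.1 + y.2)
  rw [add_add_add_comm] at h3
  simp only [hx, Prod.fst_add, Prod.snd_add]
  omega

theorem hx_nonneg (x : ℤ × ℤ) : 0 ≤ hx x := (abs_nonneg _).trans (le_max_left _ _)

theorem lip_iff {k : Cfg} : Lip k ↔ ∀ x y, hx (y - x) ≤ 1 → |k y - k x| ≤ 1 := by
  constructor
  · rintro h ⟨a, b⟩ ⟨c, d⟩ hxy
    simp only [hx, Prod.fst_sub, Prod.snd_sub, max_le_iff, abs_le] at hxy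
    have h1 := h (a, b)
    have h2 := h (c, d)
    simp only [Prod.mk_add_mk, add_zero] at h1 h2
    have : (c = a ∧ d = b) ∨ (c = a + 1 ∧ d = b) ∨ (c = a ∧ d = b + 1) ∨ (c = a + -1 ∧ d = b + 1) ∨
        (a = c + 1 ∧ b = d) ∨ (a = c ∧ b = d + 1) ∨ (a = c + -1 ∧ b = d + 1) := by omega
    rcases this with ⟨rfl, rfl⟩ | ⟨rfl, rfl⟩ | ⟨rfl, rfl⟩ | ⟨rfl, rfl⟩ | ⟨rfl, rfl⟩ | ⟨rfl, rfl⟩ |
      ⟨rfl, rfl⟩
    · simp
    · exact h1.1
    · exact h1.2.1
    · exact h1.2.2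
    · rw [abs_sub_comm]; exact h2.1
    · rw [abs_sub_comm]; exact h2.2.1
    · rw [abs_sub_comm]; exact h2.2.2
  · intro h x
    exact ⟨h _ _ (by simp [hx]), h _ _ (by simp [hx]), h _ _ (by simp [hx])⟩

theorem Cl.subset {D L : Finset (ℤ × ℤ)} (h : Cl D L) : D ⊆ L :=
  fun x hx' => h x hx' x (by simp [hx])

theorem cl_hex (c : ℤ × ℤ) (n : ℕ) : Cl (hexA c n) (hexA c (n + 1)) := fun x h y hy => by
  rw [mem_hexA] at h ⊢
  have := hx_add (y - x) (x - c)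
  rw [sub_add_sub_cancel] at this
  push_cast
  omega

theorem hex_sub {c c' : ℤ × ℤ} {n m : ℕ} (h : (n : ℤ) + hx (c - c') ≤ m) : hexA c n ⊆ hexA c' m :=
  fun x h1 => by
  rw [mem_hexA] at h1 ⊢
  have := hx_add (x - c) (c - c')
  rw [sub_add_sub_cancel] at this
  omega

theorem ev_sub (c : ℤ × ℤ) (S : Finset (ℤ × ℤ)) : ∀ᶠ n in atTop, S ⊆ hexA c n := by
  have h : ∀ᶠ n in atTop, ∀ x ∈ S, x ∈ hexA c n := by
    refine (eventually_all_finset S).2 fun x _ => ?_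
    filter_upwards [eventually_ge_atTop (hx (x - c)).toNat] with n hn
    rw [mem_hexA]
    omega
  exact h

theorem conf_eq (N n : ℕ) : Conf N n = AdmE N (hexA 0 n) (hexA 0 (n + 1)) := by
  ext k
  simp only [Conf, AdmE, Set.mem_ofPred_eq, mem_hexA, sub_zero, not_le]
  push_cast
  rfl

theorem confP_eq (N n : ℕ) (S : Finset (ℤ × ℤ)) (η : Cfg) :
    confP N n S η = avH N 0 n (pat S η) := by
  classical
  have e : {k ∈ AdmE N (hexA 0 n) (hexA 0 (n + 1)) | ∀ x ∈ S, k x - k 0 = η x} =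
      ↑((admE N (hexA 0 n) (hexA 0 (n + 1))).filter fun k => ∀ x ∈ S, k x - k 0 = η x) := by
    ext k
    simp only [Set.mem_ofPred_eq, Finset.coe_filter, mem_admE]
  rw [confP, conf_eq, e, Set.ncard_coe_finset, Set.ncard_eq_toFinset_card _ (admE_finite _ _ _),
    avH, avE, Finset.card_filter]
  congr 1
  push_cast
  refine Finset.sum_congr rfl fun k _ => ?_
  unfold pat
  split_ifs <;> rfl

theorem loc_pat (S : Finset (ℤ × ℤ)) (η : Cfg) : Loc (insert 0 S) (pat S η) := fun k k' h => by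
  have e : (∀ x ∈ S, k x - k 0 = η x) ↔ ∀ x ∈ S, k' x - k' 0 = η x :=
    forall₂_congr fun x hx' => by
      rw [h x (Finset.mem_insert_of_mem hx') 0 (Finset.mem_insert_self _ _)]
  unfold pat
  by_cases h1 : ∀ x ∈ S, k x - k 0 = η x
  · rw [if_pos h1, if_pos (e.1 h1)]
  · rw [if_neg h1, if_neg fun h2 => h1 (e.2 h2)]

theorem Loc.locV {S : Finset (ℤ × ℤ)} {F : Cfg → ℝ} (h : Loc S F) : LocV S F :=
  fun k k' e => h k k' fun x h1 y h2 => by rw [e x h1, e y h2]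

theorem avE_congr {N : ℕ} {D L : Finset (ℤ × ℤ)} {F G : Cfg → ℝ} (h : ∀ k ∈ AdmE N D L, F k = G k) :
    avE N D L F = avE N D L G := by
  rw [avE, avE, Finset.sum_congr rfl fun k hk => h k (mem_admE.1 hk)]

theorem avE_mono {N : ℕ} {D L : Finset (ℤ × ℤ)} {F G : Cfg → ℝ} (h : ∀ k ∈ AdmE N D L, F k ≤ G k) :
    avE N D L F ≤ avE N D L G :=
  div_le_div_of_nonneg_right (Finset.sum_le_sum fun k hk => h k (mem_admE.1 hk)) (Nat.cast_nonneg _)

theorem avE_const (N : ℕ) (D L : Finset (ℤ × ℤ)) (a : ℝ) : avE N D L (fun _ => a) = a := by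
  have h : ((admE N D L).card : ℝ) ≠ 0 := Nat.cast_ne_zero.2 (card_admE N D L).ne'
  rw [avE, Finset.sum_const, nsmul_eq_mul, mul_div_cancel_left₀ _ h]

theorem avE_add (N : ℕ) (D L : Finset (ℤ × ℤ)) (F G : Cfg → ℝ) :
    avE N D L (fun k => F k + G k) = avE N D L F + avE N D L G := by
  rw [avE, avE, avE, Finset.sum_add_distrib, add_div]

theorem avE_mul (N : ℕ) (D L : Finset (ℤ × ℤ)) (a : ℝ) (F : Cfg → ℝ) :
    avE N D L (fun k => a * F k) = a * avE N D L F := by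
  rw [avE, avE, ← Finset.mul_sum, mul_div_assoc]

theorem avE_sum (N : ℕ) (D L : Finset (ℤ × ℤ)) {ι : Type} (s : Finset ι) (F : ι → Cfg → ℝ) :
    avE N D L (fun k => ∑ i ∈ s, F i k) = ∑ i ∈ s, avE N D L (F i) := by
  rw [avE, Finset.sum_comm, Finset.sum_div]
  rfl

theorem avE_bij {N : ℕ} {D L D' L' : Finset (ℤ × ℤ)} (φ ψ : Cfg → Cfg)
    (h1 : ∀ k ∈ AdmE N D L, φ k ∈ AdmE N D' L') (h2 : ∀ k ∈ AdmE N D' L', ψ k ∈ AdmE N D L)
    (l : ∀ k ∈ AdmE N D L, ψ (φ k) = k) (r : ∀ k ∈ AdmE N D' L', φ (ψ k) = k) (F : Cfg → ℝ) :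
    avE N D L (fun k => F (φ k)) = avE N D' L' F := by
  have a : ∀ G : Cfg → ℝ, ∑ k ∈ admE N D L, G (φ k) = ∑ k ∈ admE N D' L', G k := fun G =>
    Finset.sum_nbij' φ ψ (fun k hk => mem_admE.2 (h1 k (mem_admE.1 hk)))
      (fun k hk => mem_admE.2 (h2 k (mem_admE.1 hk))) (fun k hk => l k (mem_admE.1 hk))
      (fun k hk => r k (mem_admE.1 hk)) fun _ _ => rfl
  have b := a fun _ => 1
  simp only [Finset.sum_const, nsmul_eq_mul, mul_one] at b
  rw [avE, avE, a, b]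

end Vale.Agent.P153E
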