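import Vale.Agent.P153E.E1

/-! The ambient set does not matter. Induction on L' \\ L, one point p ∉ L at a time (Cl D L is kept when L grows): admE N D (insert p L) is the disjoint union of admE N D L (k p = 0) and its image under
`Function.update k p (-1)` (k p = -1); the neighbours of p are off D (Cl, hx_neg), so their values are in {0,-1} (lip_iff). Sums and cards double; F does not see p. -/

open MeasureTheory Filter Topology

noncomputable section

namespace Vale.Agent.P153E

open Vale.Agent.P153

theorem E2_upd {N : ℕ} {D L L' : Finset (ℤ × ℤ)} (h : Cl D L) {p : ℤ × ℤ} (hp : p ∉ L) {k : Cfg}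
    (hk : k ∈ AdmE N D L') {t : ℤ} (ht : t = 0 ∨ t = -1) :
    Lip (Function.update k p t) ∧
      (∀ x, -((N : ℤ) + 1) ≤ Function.update k p t x ∧ Function.update k p t x ≤ N) ∧
      ∀ x, x ∉ D → Function.update k p t x = 0 ∨ Function.update k p t x = -1 := by
  have h3 : ∀ x, x ∉ D → Function.update k p t x = 0 ∨ Function.update k p t x = -1 :=
    fun x hx => by
      rw [Function.update_apply]
      split_ifs
      · exact ht
      · exact hk.2.2.1 x hx
  have h4 : ∀ x, hx (p - x) ≤ 1 → x ∉ D := fun x h1 h2 => hp (h x h2 p h1)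
  have h5 : p ∉ D := fun h1 => hp (h.subset h1)
  refine ⟨lip_iff.2 fun x y e => ?_, fun x => ?_, h3⟩
  · by_cases hx' : x = p
    · subst hx'
      have a := h3 x h5
      have b := h3 y (h4 y (by rwa [← neg_sub, hx_neg]))
      rw [abs_le]
      omega
    by_cases hy : y = p
    · subst hy
      have a := h3 y h5
      have b := h3 x (h4 x e)
      rw [abs_le]
      omega
    rw [Function.update_of_ne hx', Function.update_of_ne hy]
    exact lip_iff.1 hk.1 x y e
  · rw [Function.update_apply]
    split_ifs
    · omega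
    · exact hk.2.1 x

theorem E2_sum {N : ℕ} {D L : Finset (ℤ × ℤ)} (h : Cl D L) {p : ℤ × ℤ} (hp : p ∉ L)
    {F : Cfg → ℝ} (hF : LocV L F) :
    ∑ k ∈ admE N D (insert p L), F k = 2 * ∑ k ∈ admE N D L, F k := by
  classical
  have h5 : p ∉ D := fun h1 => hp (h.subset h1)
  have e : ∀ (k : Cfg) (t : ℤ), F (Function.update k p t) = F k := fun k t =>
    hF _ _ fun x hx => Function.update_of_ne (ne_of_mem_of_not_mem hx hp) _ _
  rw [← Finset.sum_filter_add_sum_filter_not _ fun k : Cfg => k p = 0, two_mul]
  congr 1
  · refine Finset.sum_congr ?_ fun _ _ => rfl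
    ext k
    simp only [Finset.mem_filter, mem_admE]
    constructor
    · rintro ⟨⟨a, b, c, d⟩, f⟩
      refine ⟨a, b, c, fun x hx => ?_⟩
      by_cases h1 : x = p
      · rw [h1, f]
      · exact d x (by simp [h1, hx])
    · rintro ⟨a, b, c, d⟩
      exact ⟨⟨a, b, c, fun x hx => d x fun h1 => hx (Finset.mem_insert_of_mem h1)⟩, d p hp⟩
  · refine Finset.sum_nbij' (fun k => Function.update k p 0) (fun k => Function.update k p (-1))
      (fun k hk => ?_) (fun k hk => ?_) (fun k hk => ?_) (fun k hk => ?_) fun k _ => (e k 0).symm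
    · have h1 := mem_admE.1 (Finset.mem_filter.1 hk).1
      obtain ⟨a, b, c⟩ := E2_upd h hp h1 (Or.inl rfl)
      refine mem_admE.2 ⟨a, b, c, fun x hx => ?_⟩
      rw [Function.update_apply]
      split_ifs with h2
      · rfl
      · exact h1.2.2.2 x (by simp [h2, hx])
    · have h1 := mem_admE.1 hk
      obtain ⟨a, b, c⟩ := E2_upd h hp h1 (Or.inr rfl)
      refine Finset.mem_filter.2 ⟨mem_admE.2 ⟨a, b, c, fun x hx => ?_⟩, by simp⟩
      rw [Finset.mem_insert, not_or] at hx
      rw [Function.update_of_ne hx.1]
      exact h1.2.2.2 x hx.2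
    · obtain ⟨h1, h2⟩ := Finset.mem_filter.1 hk
      rw [Function.update_idem, ← ((mem_admE.1 h1).2.2.1 p h5).resolve_left h2,
        Function.update_eq_self]
    · rw [Function.update_idem, ← (mem_admE.1 hk).2.2.2 p hp, Function.update_eq_self]

theorem amb {N : ℕ} {D L L' S : Finset (ℤ × ℤ)} {F : Cfg → ℝ} (h : Cl D L) (hL : L ⊆ L')
    (hF : LocV S F) (hS : S ⊆ L) : avE N D L F = avE N D L' F := by
  have key : ∀ T : Finset (ℤ × ℤ), avE N D L F = avE N D (T ∪ L) F := fun T => by
    induction T using Finset.induction_on with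
    | empty => rw [Finset.empty_union]
    | insert p T _ ih =>
      rw [Finset.insert_union]
      by_cases hp : p ∈ T ∪ L
      · rwa [Finset.insert_eq_of_mem hp]
      have h' : Cl D (T ∪ L) := fun x hx y e => Finset.mem_union_right _ (h x hx y e)
      have h1 := E2_sum (N := N) h' hp (F := F) fun k k' e =>
        hF k k' fun x hx => e x (Finset.mem_union_right _ (hS hx))
      have h2 := E2_sum (N := N) h' hp (F := fun _ => 1) fun _ _ _ => rfl
      simp only [Finset.sum_const, nsmul_eq_mul, mul_one] at h2
      rw [ih, avE, avE, h1, h2, mul_div_mul_left _ _ two_ne_zero]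
  rw [key L', Finset.union_eq_left.2 hL]

end Vale.Agent.P153E
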