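import Vale.Agent.P153E.E1

/-! Signs. Finite: restriction to L is injective. zz_super: Sgn (H ⊔ H') = Sgn H ⊓ Sgn H', Sgn H ⊔ Sgn H' ≤ Sgn (H ⊓ H'); the map V × V' → Sgn (H ⊓ H'), (v,v') ↦ v+v' has fibres of size ≤ card (V ⊓ V')
((v,v') ↦ v - v₀ is injective on a fibre), `Finset.card_le_mul_card_image` (or second isomorphism theorem `AddSubgroup.card_mul_index`, `relIndex_sup_right`).
char_sum: if some s₀ has (A.map s₀).sum = 1, translation by s₀ flips the sign, so the sum is 0 (`Equiv.addRight`); the product is 1 or -1 according to (A.map s).sum (induction on A). -/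

open MeasureTheory Filter Topology

noncomputable section

namespace Vale.Agent.P153E

open Vale.Agent.P153

theorem E3_le {G : Type} [AddCommGroup G] {V W : AddSubgroup G} (h : V ≤ W) :
    Nat.card V * V.relIndex W = Nat.card W := by
  rw [← Nat.card_congr (AddSubgroup.addSubgroupOfEquivOfLe h).toEquiv]
  exact AddSubgroup.card_mul_index _

theorem E3_card {G : Type} [AddCommGroup G] (V W : AddSubgroup G) :
    Nat.card V * Nat.card W = Nat.card (V ⊔ W : AddSubgroup G) * Nat.card (V ⊓ W : AddSubgroup G) := by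
  rw [← E3_le (le_sup_left : V ≤ V ⊔ W), ← E3_le (inf_le_right : V ⊓ W ≤ W),
    AddSubgroup.relIndex_sup_left, AddSubgroup.inf_relIndex_right]
  ring

theorem E3_anti (L : Finset (ℤ × ℤ)) {H H' : Cfg} (h : 0 ≤ H) (h' : H ≤ H') :
    Sgn L H' ≤ Sgn L H := fun _ hs => ⟨hs.1, fun x y h1 h2 => hs.2 x y h1 (by
  have h3 : 0 ≤ H x := h x
  have h4 : H x ≤ H' x := h' x
  omega)⟩

theorem sgn_finite (L : Finset (ℤ × ℤ)) (H : Cfg) : (Sgn L H : Set (ℤ × ℤ → ZMod 2)).Finite := by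
  refine Set.Finite.of_finite_image (f := fun (k : ℤ × ℤ → ZMod 2) (x : L) => k x)
    (Set.toFinite _) ?_
  intro k hk k' hk' e
  funext x
  by_cases h : x ∈ L
  · exact congrFun e ⟨x, h⟩
  · rw [hk.1 x h, hk'.1 x h]

theorem zz_nonneg (L : Finset (ℤ × ℤ)) (H : Cfg) : 0 ≤ zz L H := Nat.cast_nonneg _

theorem zz_super (L : Finset (ℤ × ℤ)) {H H' : Cfg} (h : 0 ≤ H) (h' : 0 ≤ H') :
    zz L H * zz L H' ≤ zz L (H ⊓ H') * zz L (H ⊔ H') := by
  have f1 : Finite (Sgn L (H ⊓ H')) := (sgn_finite L _).to_subtype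
  have f2 : Finite (Sgn L (H ⊔ H')) := (sgn_finite L _).to_subtype
  have h1 : Sgn L H ⊔ Sgn L H' ≤ Sgn L (H ⊓ H') :=
    sup_le (E3_anti L (le_inf h h') inf_le_left) (E3_anti L (le_inf h h') inf_le_right)
  have h2 : Sgn L H ⊓ Sgn L H' ≤ Sgn L (H ⊔ H') := fun s hs =>
    ⟨hs.1.1, fun x y a b => by
      by_cases c : H x = 0
      · refine hs.2.2 x y a fun d => b ?_
        rw [Pi.sup_apply, c, d, sup_idem]
      · exact hs.1.2 x y a c⟩
  unfold zz
  rw [← Nat.cast_mul, ← Nat.cast_mul, E3_card, Nat.cast_le]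
  exact Nat.mul_le_mul (AddSubgroup.card_le_of_le h1) (AddSubgroup.card_le_of_le h2)

theorem triv_nonneg (L : Finset (ℤ × ℤ)) (A : List (ℤ × ℤ)) (H : Cfg) : 0 ≤ triv L A H := by
  unfold triv
  split_ifs <;> norm_num

theorem triv_mono (L : Finset (ℤ × ℤ)) (A : List (ℤ × ℤ)) {H H' : Cfg} (h : 0 ≤ H) (h' : H ≤ H') :
    triv L A H ≤ triv L A H' := by
  unfold triv
  split_ifs with a b
  · exact le_rfl
  · exact (b fun s hs => a s (E3_anti L h h' hs)).elim
  · exact zero_le_one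
  · exact le_rfl

theorem E3_two : ∀ a b : ZMod 2, (a = 0 ∧ b = 0 ∧ a + b = 0) ∨ (a = 0 ∧ b ≠ 0 ∧ a + b ≠ 0) ∨
    (a ≠ 0 ∧ b = 0 ∧ a + b ≠ 0) ∨ (a ≠ 0 ∧ b ≠ 0 ∧ a + b = 0) := by decide

theorem E3_prod (A : List (ℤ × ℤ)) (s : ℤ × ℤ → ZMod 2) :
    (A.map fun x => if s x = 0 then (1 : ℝ) else -1).prod =
      if (A.map s).sum = 0 then 1 else -1 := by
  induction A with
  | nil => simp
  | cons x A ih =>
    rw [List.map_cons, List.prod_cons, ih, List.map_cons, List.sum_cons]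
    rcases E3_two (s x) (A.map s).sum with ⟨a, b, c⟩ | ⟨a, b, c⟩ | ⟨a, b, c⟩ | ⟨a, b, c⟩
    · rw [if_pos a, if_pos b, if_pos c, mul_one]
    · rw [if_pos a, if_neg b, if_neg c, one_mul]
    · rw [if_neg a, if_pos b, if_neg c, mul_one]
    · rw [if_neg a, if_neg b, if_pos c, neg_mul_neg, mul_one]

theorem E3_add (A : List (ℤ × ℤ)) (s t : ℤ × ℤ → ZMod 2) :
    (A.map (s + t)).sum = (A.map s).sum + (A.map t).sum := List.sum_map_add

theorem char_sum (L : Finset (ℤ × ℤ)) (A : List (ℤ × ℤ)) (H : Cfg) :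
    ∑ s ∈ (sgn_finite L H).toFinset, (A.map fun x => if s x = 0 then (1 : ℝ) else -1).prod =
      zz L H * triv L A H := by
  have hm : ∀ s, s ∈ (sgn_finite L H).toFinset ↔ s ∈ Sgn L H := fun s => Set.Finite.mem_toFinset _
  simp only [E3_prod]
  unfold triv
  split_ifs with h
  · rw [Finset.sum_congr rfl fun s hs => if_pos (h s ((hm s).1 hs)), Finset.sum_const, nsmul_eq_mul,
      ← Set.ncard_eq_toFinset_card _ (sgn_finite L H)]
    rfl
  · push Not at h
    obtain ⟨t, ht, h⟩ := h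
    have e : ∑ s ∈ (sgn_finite L H).toFinset, (if (A.map s).sum = 0 then (1 : ℝ) else -1) =
        ∑ s ∈ (sgn_finite L H).toFinset, -(if (A.map s).sum = 0 then (1 : ℝ) else -1) := by
      refine Finset.sum_nbij' (fun s => s + t) (fun s => s - t) (fun s hs => ?_) (fun s hs => ?_)
        (fun s _ => add_sub_cancel_right _ _) (fun s _ => sub_add_cancel _ _) fun s _ => ?_
      · exact (hm _).2 (add_mem ((hm s).1 hs) ht)
      · exact (hm _).2 (sub_mem ((hm s).1 hs) ht)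
      · rw [E3_add]
        rcases E3_two (A.map s).sum (A.map t).sum with
          ⟨a, b, c⟩ | ⟨a, b, c⟩ | ⟨a, b, c⟩ | ⟨a, b, c⟩
        · exact (h b).elim
        · rw [if_pos a, if_neg c, neg_neg]
        · exact (h b).elim
        · rw [if_neg a, if_pos c]
    rw [Finset.sum_neg_distrib] at e
    linarith

end Vale.Agent.P153E
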