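import Vale.Agent.P153E.E3

/-! k ↔ (H, s): H x = ab (k x), s x = if 0 ≤ k x then 0 else 1, k x = if s x = 0 then H x else -1 - H x. Lip k iff Lip H and neighbours have equal signs unless both H vanish (lip_iff; `omega` after case splits; in ZMod 2, s ≠ 0 → s = 1 by `decide`/`fin_cases`).
`Finset.sum_fiberwise_of_maps_to` for k ↦ ab ∘ k, then `Finset.sum_nbij'` on each fibre, char_sum. -/

open MeasureTheory Filter Topology

noncomputable section

namespace Vale.Agent.P153E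

open Vale.Agent.P153

theorem mem_habs {N : ℕ} {D : Finset (ℤ × ℤ)} {H : Cfg} : H ∈ habs N D ↔
    Lip H ∧ (∀ x, 0 ≤ H x ∧ H x ≤ N) ∧ ∀ x, x ∉ D → H x = 0 := by
  rw [habs, Finset.mem_filter, mem_admE]
  refine ⟨fun ⟨⟨h1, h2, _, h4⟩, h5⟩ => ⟨h1, fun x => ⟨?_, (h2 x).2⟩, h4⟩,
    fun ⟨h1, h2, h3⟩ => ⟨⟨h1, fun x => ⟨?_, (h2 x).2⟩, fun x h => Or.inl (h3 x h), h3⟩,
      fun x _ => (h2 x).1⟩⟩
  · by_cases h : x ∈ D
    · exact h5 x h
    · exact (h4 x h).ge
  · have := (h2 x).1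
    omega

theorem E4_two : ∀ a b : ZMod 2, a ≠ 0 → b ≠ 0 → a = b := by decide

theorem E4_ab {N : ℕ} {D L : Finset (ℤ × ℤ)} {k : Cfg} (hk : k ∈ admE N D L) :
    (fun x => ab (k x)) ∈ habs N D := by
  obtain ⟨h1, h2, h3, -⟩ := mem_admE.1 hk
  refine mem_habs.2 ⟨lip_iff.2 fun x y h => ?_, fun x => ?_, fun x h => ?_⟩
  · have := abs_le.1 (lip_iff.1 h1 x y h)
    refine abs_le.2 ?_
    simp only [ab]
    omega
  · have := h2 x
    simp only [ab]
    omega
  · have := h3 x h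
    simp only [ab]
    omega

theorem E4_sg {N : ℕ} {D L : Finset (ℤ × ℤ)} {k : Cfg} (hk : k ∈ admE N D L) :
    (fun x => if 0 ≤ k x then (0 : ZMod 2) else 1) ∈ Sgn L fun x => ab (k x) := by
  obtain ⟨h1, -, -, h4⟩ := mem_admE.1 hk
  refine ⟨fun x h => if_pos (h4 x h).ge, fun x y h h' => ?_⟩
  have := abs_le.1 (lip_iff.1 h1 x y h)
  simp only [ab] at h'
  exact if_congr (by omega) rfl rfl

theorem E4_mk {N : ℕ} {D L : Finset (ℤ × ℤ)} (h : D ⊆ L) {H : Cfg} (hH : H ∈ habs N D)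
    {s : ℤ × ℤ → ZMod 2} (hs : s ∈ Sgn L H) :
    (fun x => if s x = 0 then H x else -1 - H x) ∈ admE N D L := by
  obtain ⟨h1, h2, h3⟩ := mem_habs.1 hH
  refine mem_admE.2 ⟨lip_iff.2 fun x y e => ?_, fun x => ?_, fun x e => ?_, fun x e => ?_⟩
  · have a1 := abs_le.1 (lip_iff.1 h1 x y e)
    have a2 : s x ≠ s y → H x = 0 := fun k => by_contra fun k' => k (hs.2 x y e k')
    have a3 : s x ≠ s y → H y = 0 := fun k => by_contra fun k' =>
      k (hs.2 y x (by rwa [← neg_sub, hx_neg]) k').symm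
    refine abs_le.2 ?_
    split_ifs with b1 b2 b2
    · exact a1
    · have c : s x ≠ s y := fun k => b2 (k.trans b1)
      rw [a2 c, a3 c]
      omega
    · have c : s x ≠ s y := fun k => b1 (k.symm.trans b2)
      rw [a2 c, a3 c]
      omega
    · omega
  · have := h2 x
    beta_reduce
    split_ifs <;> omega
  · have := h3 x e
    beta_reduce
    split_ifs <;> omega
  · exact (if_pos (hs.1 x e)).trans (h3 x fun k => e (h k))

theorem E4_abs {t : ℤ} (ht : 0 ≤ t) (a : ZMod 2) : ab (if a = 0 then t else -1 - t) = t ∧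
    (0 ≤ (if a = 0 then t else -1 - t) ↔ a = 0) := by
  unfold ab
  split_ifs with h
  · exact ⟨by omega, iff_of_true ht h⟩
  · exact ⟨by omega, iff_of_false (by omega) h⟩

theorem E4_sum {N : ℕ} {D L : Finset (ℤ × ℤ)} (h : D ⊆ L) (Φ : Cfg → ℝ) :
    ∑ k ∈ admE N D L, Φ k = ∑ H ∈ habs N D, ∑ s ∈ (sgn_finite L H).toFinset,
      Φ fun x => if s x = 0 then H x else -1 - H x := by
  classical
  rw [← Finset.sum_fiberwise_of_maps_to (g := fun (k : Cfg) x => ab (k x)) fun k hk => E4_ab hk]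
  refine Finset.sum_congr rfl fun H hH => ?_
  have h0 := fun x => ((mem_habs.1 hH).2.1 x).1
  have inv : ∀ k ∈ (admE N D L).filter fun k => (fun x => ab (k x)) = H,
      (fun x => if (if 0 ≤ k x then (0 : ZMod 2) else 1) = 0 then H x else -1 - H x) = k :=
    fun k hk => by
      funext x
      rw [← (Finset.mem_filter.1 hk).2]
      by_cases e : 0 ≤ k x
      · rw [if_pos e, if_pos rfl]
        simp only [ab]
        omega
      · rw [if_neg e, if_neg one_ne_zero]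
        simp only [ab]
        omega
  refine Finset.sum_nbij' (fun k x => if 0 ≤ k x then (0 : ZMod 2) else 1)
    (fun s x => if s x = 0 then H x else -1 - H x) (fun k hk => ?_) (fun s hs => ?_) inv
    (fun s _ => ?_) fun k hk => congrArg Φ (inv k hk).symm
  · obtain ⟨h1, rfl⟩ := Finset.mem_filter.1 hk
    exact (Set.Finite.mem_toFinset _).2 (E4_sg h1)
  · exact Finset.mem_filter.2 ⟨E4_mk h hH ((Set.Finite.mem_toFinset _).1 hs),
      funext fun x => (E4_abs (h0 x) _).1⟩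
  · funext x
    by_cases e : s x = 0
    · exact (if_pos ((E4_abs (h0 x) _).2.2 e)).trans e.symm
    · exact (if_neg fun k => e ((E4_abs (h0 x) _).2.1 k)).trans (E4_two _ _ one_ne_zero e)

open Classical in
theorem sum_bas {N : ℕ} {D L : Finset (ℤ × ℤ)} (h : D ⊆ L) (A : List (ℤ × ℤ))
    (T : Finset ((ℤ × ℤ) × ℤ)) : ∑ k ∈ admE N D L, bas A T k =
      ∑ H ∈ habs N D, zz L H * triv L A H * if ∀ p ∈ T, p.2 ≤ H p.1 then 1 else 0 := by
  rw [E4_sum h]
  refine Finset.sum_congr rfl fun H hH => ?_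
  have h0 := fun x => ((mem_habs.1 hH).2.1 x).1
  rw [← char_sum, Finset.sum_mul]
  refine Finset.sum_congr rfl fun s _ => ?_
  simp only [bas, sg, fun x => (E4_abs (h0 x) (s x)).1, fun x => (E4_abs (h0 x) (s x)).2]

theorem card_eq {N : ℕ} {D L : Finset (ℤ × ℤ)} (h : D ⊆ L) :
    ((admE N D L).card : ℝ) = ∑ H ∈ habs N D, zz L H := by
  have k := sum_bas (N := N) h [] ∅
  simpa [bas, triv] using k

end Vale.Agent.P153E
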