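import Vale.Agent.P153E.E4

/-! `four_functions_theorem` in the distributive lattice Cfg (see a7_step, a7_inf in P153/A7.lean) with s = habs N D, t = habs N D', g H = triv * indicator (increasing on H ≥ 0),
f1 = [0 ≤ H] zz g, f2 = [0 ≤ H] zz, f3 = zz, f4 = zz g; s ⊼ t ⊆ habs N D, s ⊻ t ⊆ habs N D' (mem_habs). Then `div_le_div_iff₀`, sum_bas, card_eq. -/

open MeasureTheory Filter Topology

noncomputable section

namespace Vale.Agent.P153E

open Vale.Agent.P153

open scoped FinsetFamily in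

theorem bas_mono {N : ℕ} {D D' L : Finset (ℤ × ℤ)} (h : D ⊆ D') (h' : D' ⊆ L) (A : List (ℤ × ℤ))
    (T : Finset ((ℤ × ℤ) × ℤ)) : avE N D L (bas A T) ≤ avE N D' L (bas A T) := by
  classical
  set g : Cfg → ℝ := fun H => triv L A H * if ∀ p ∈ T, p.2 ≤ H p.1 then 1 else 0 with hg
  have i0 : ∀ H : Cfg, (0 : ℝ) ≤ if ∀ p ∈ T, p.2 ≤ H p.1 then 1 else 0 := fun H => by
    split_ifs <;> norm_num
  have g0 : ∀ H, 0 ≤ g H := fun H => mul_nonneg (triv_nonneg _ _ _) (i0 H)
  have gm : ∀ H H', 0 ≤ H → H ≤ H' → g H ≤ g H' := fun H H' h0 hH =>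
    mul_le_mul (triv_mono L A h0 hH) (by
      by_cases a : ∀ p ∈ T, p.2 ≤ H p.1
      · rw [if_pos a, if_pos fun p hp => (a p hp).trans (hH _)]
      · rw [if_neg a]
        exact i0 _) (i0 _) (triv_nonneg _ _ _)
  have z0 := zz_nonneg L
  have y0 : ∀ H, 0 ≤ zz L H * g H := fun H => mul_nonneg (z0 H) (g0 H)
  have F := four_functions_theorem (fun H : Cfg => if 0 ≤ H then zz L H * g H else 0)
    (fun H => if 0 ≤ H then zz L H else 0) (zz L) (fun H => zz L H * g H)
    (fun H => by dsimp only; split_ifs; exacts [y0 H, le_rfl])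
    (fun H => by dsimp only; split_ifs; exacts [z0 H, le_rfl]) z0 y0 (fun a b => by
      split_ifs with ha hb
      · rw [mul_right_comm, ← mul_assoc (zz L (a ⊓ b))]
        exact mul_le_mul (zz_super L ha hb) (gm _ _ ha le_sup_left) (g0 _)
          (mul_nonneg (z0 _) (z0 _))
      · rw [mul_zero]
        exact mul_nonneg (z0 _) (y0 _)
      all_goals
        rw [zero_mul]
        exact mul_nonneg (z0 _) (y0 _)) (habs N D) (habs N D')
  have h2 : habs N D ⊼ habs N D' ⊆ habs N D := fun z hz => by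
    obtain ⟨a, ha, b, hb, rfl⟩ := Finset.mem_infs.1 hz
    rw [mem_habs] at ha hb ⊢
    refine ⟨(a7_inf ha.1 hb.1).1, fun x => ?_, fun x hx => ?_⟩ <;> simp only [Pi.inf_apply] <;>
      have := ha.2.1 x <;> have := hb.2.1 x
    · omega
    · have := ha.2.2 x hx
      omega
  have h3 : habs N D ⊻ habs N D' ⊆ habs N D' := fun z hz => by
    obtain ⟨a, ha, b, hb, rfl⟩ := Finset.mem_sups.1 hz
    rw [mem_habs] at ha hb ⊢
    refine ⟨(a7_inf ha.1 hb.1).2, fun x => ?_, fun x hx => ?_⟩ <;> simp only [Pi.sup_apply]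
    · have := ha.2.1 x
      have := hb.2.1 x
      omega
    · rw [ha.2.2 x fun k => hx (h k), hb.2.2 x hx, sup_idem]
  have G := F.trans (mul_le_mul (Finset.sum_le_sum_of_subset_of_nonneg h2 fun H _ _ => z0 H)
    (Finset.sum_le_sum_of_subset_of_nonneg h3 fun H _ _ => y0 H)
    (Finset.sum_nonneg fun H _ => y0 H) (Finset.sum_nonneg fun H _ => z0 H))
  have p : ∀ {E : Finset (ℤ × ℤ)}, ∀ H ∈ habs N E, 0 ≤ H := fun H hH x =>
    ((mem_habs.1 hH).2.1 x).1
  rw [Finset.sum_congr rfl fun H hH => if_pos (p H hH),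
    Finset.sum_congr rfl fun H hH => if_pos (p H hH)] at G
  rw [avE, avE, div_le_div_iff₀ (Nat.cast_pos.2 (card_admE _ _ _))
    (Nat.cast_pos.2 (card_admE _ _ _)), sum_bas (h.trans h'), sum_bas h', card_eq h',
    card_eq (h.trans h')]
  simp only [mul_assoc]
  exact G.trans_eq (mul_comm _ _)

end Vale.Agent.P153E
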