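import Vale.Agent.P153E.E2
import Vale.Agent.P153E.E5

/-! conv_bas: u c n = avH N c n (bas A T) ≤ 1. If the support S (A.toFinset ∪ T.image fst) is in hexA c n and hexA c (n+1) ⊆ hexA c' m then u c n ≤ u c' m (amb to the ambient hexA c' (m+1), bas_mono, hex_sub). For a fixed c ... use m ≥ n+1:
n ↦ u c (n₀ + n) satisfies u n ≤ u m for m ≥ n + 1, so it is monotone (`monotone_nat_of_le_succ`), converges (`tendsto_atTop_ciSup`, `tendsto_add_atTop_iff_nat`); the limits for c and c' are equal (two inequalities).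
conv: call G good if ∃ l, ∀ c, avH N c n G → l; good functions form a vector space. By induction on S, for all A T: (indicator of k = η on S) * bas A T is good:
[k x = t] = (1 + sg t * sg (k x))/2 * ([ab t ≤ ab (k x)] - [ab t + 1 ≤ ab (k x)]), and sg (k x) * bas A T = bas (x :: A) T, [m ≤ ab (k x)] * bas A T = bas A (insert (x,m) T).
On AdmE: F k = ∑ over t ∈ Fintype.piFinset (fun _ : S => Icc (-(N+1)) N) of F (a2_ext S t) * indicator (avE_congr, avE_sum). `Tendsto.limUnder_eq`. -/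

open MeasureTheory Filter Topology

noncomputable section

namespace Vale.Agent.P153E

open Vale.Agent.P153

theorem E6_loc (A : List (ℤ × ℤ)) (T : Finset ((ℤ × ℤ) × ℤ)) :
    LocV (A.toFinset ∪ T.image Prod.fst) (bas A T) := fun k k' h => by
  have h1 : (A.map fun x => sg (k x)) = A.map fun x => sg (k' x) :=
    List.map_congr_left fun x hx => by
      rw [h x (Finset.mem_union_left _ (List.mem_toFinset.2 hx))]
  have h2 : (∀ p ∈ T, p.2 ≤ ab (k p.1)) ↔ ∀ p ∈ T, p.2 ≤ ab (k' p.1) :=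
    forall₂_congr fun p hp => by
      rw [h p.1 (Finset.mem_union_right _ (Finset.mem_image_of_mem _ hp))]
  simp only [bas, h1, h2]

theorem E6_abs (A : List (ℤ × ℤ)) (k : Cfg) : |(A.map fun x => sg (k x)).prod| = 1 := by
  induction A with
  | nil => simp
  | cons x A ih =>
    rw [List.map_cons, List.prod_cons, abs_mul, ih, sg]
    split_ifs <;> simp

theorem E6_one (A : List (ℤ × ℤ)) (T : Finset ((ℤ × ℤ) × ℤ)) (k : Cfg) : bas A T k ≤ 1 := by
  unfold bas
  split_ifs
  · rw [mul_one]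
    exact (le_abs_self _).trans_eq (E6_abs A k)
  · rw [mul_zero]
    exact zero_le_one

theorem E6_le (N : ℕ) (A : List (ℤ × ℤ)) (T : Finset ((ℤ × ℤ) × ℤ)) {c c' : ℤ × ℤ} {n m : ℕ}
    (hS : A.toFinset ∪ T.image Prod.fst ⊆ hexA c n) (h : (n : ℤ) + hx (c - c') ≤ m) :
    avH N c n (bas A T) ≤ avH N c' m (bas A T) := by
  unfold avH
  rw [amb (L' := hexA c' (m + 1)) (cl_hex c n) (hex_sub (by push_cast; linarith)) (E6_loc A T)
    (hS.trans (cl_hex c n).subset)]
  exact bas_mono (hex_sub h) (cl_hex c' m).subset A T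

theorem E6_conv (N : ℕ) (A : List (ℤ × ℤ)) (T : Finset ((ℤ × ℤ) × ℤ)) (c : ℤ × ℤ) :
    ∃ l, Tendsto (fun n => avH N c n (bas A T)) atTop (𝓝 l) := by
  obtain ⟨n₀, h0⟩ := eventually_atTop.1 (ev_sub c (A.toFinset ∪ T.image Prod.fst))
  have hm : Monotone fun n => avH N c (n + n₀) (bas A T) := monotone_nat_of_le_succ fun n =>
    E6_le N A T (h0 _ (Nat.le_add_left _ _)) (by simp [hx])
  have hb : BddAbove (Set.range fun n => avH N c (n + n₀) (bas A T)) := ⟨1, by
    rintro _ ⟨n, rfl⟩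
    exact (avE_mono fun k _ => E6_one A T k).trans_eq (avE_const _ _ _ 1)⟩
  exact ⟨_, (tendsto_add_atTop_iff_nat n₀).1 (tendsto_atTop_ciSup hm hb)⟩

theorem conv_bas (N : ℕ) (A : List (ℤ × ℤ)) (T : Finset ((ℤ × ℤ) × ℤ)) :
    ∃ l, ∀ c, Tendsto (fun n => avH N c n (bas A T)) atTop (𝓝 l) := by
  choose l hl using E6_conv N A T
  have h : ∀ c c', l c ≤ l c' := fun c c' =>
    le_of_tendsto (hl c) ((ev_sub c _).mono fun n hn => ge_of_tendsto (hl c')
      ((eventually_ge_atTop (n + (hx (c - c')).toNat)).mono fun m hm =>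
        E6_le N A T hn (by omega)))
  exact ⟨l 0, fun c => le_antisymm (h c 0) (h 0 c) ▸ hl c⟩

end Vale.Agent.P153E
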