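import Vale.Agent.P153E.E6

/-! See the header of E6.lean (conv). -/

open MeasureTheory Filter Topology

noncomputable section

namespace Vale.Agent.P153E

open Vale.Agent.P153

/-- The averages converge, with a limit independent of the centre. -/
def E7_gd (N : ℕ) (G : Cfg → ℝ) : Prop :=
  ∃ l, ∀ c, Tendsto (fun n => avH N c n G) atTop (𝓝 l)

theorem E7_add {N : ℕ} {F G : Cfg → ℝ} (h : E7_gd N F) (h' : E7_gd N G) :
    E7_gd N fun k => F k + G k := by
  obtain ⟨l, h⟩ := h
  obtain ⟨l', h'⟩ := h'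
  exact ⟨l + l', fun c => ((h c).add (h' c)).congr fun n => (avE_add _ _ _ _ _).symm⟩

theorem E7_mul {N : ℕ} {F : Cfg → ℝ} (a : ℝ) (h : E7_gd N F) : E7_gd N fun k => a * F k := by
  obtain ⟨l, h⟩ := h
  exact ⟨a * l, fun c => ((h c).const_mul a).congr fun n => (avE_mul _ _ _ _ _).symm⟩

theorem E7_sum {N : ℕ} {ι : Type} (s : Finset ι) {F : ι → Cfg → ℝ} (h : ∀ i, E7_gd N (F i)) :
    E7_gd N fun k => ∑ i ∈ s, F i k := by
  choose l h using h
  exact ⟨∑ i ∈ s, l i, fun c => (tendsto_finsetSum s fun i _ => h i c).congr fun n =>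
    (avE_sum _ _ _ _ _).symm⟩

theorem E7_congr {N : ℕ} {F G : Cfg → ℝ} (h : E7_gd N F)
    (e : ∀ k : Cfg, (∀ x, -((N : ℤ) + 1) ≤ k x ∧ k x ≤ N) → F k = G k) : E7_gd N G :=
  h.imp fun _ h c => (h c).congr fun _ => avE_congr fun k hk => e k hk.2.1

theorem E7_ins (A : List (ℤ × ℤ)) (T : Finset ((ℤ × ℤ) × ℤ)) (x : ℤ × ℤ) (m : ℤ) (k : Cfg) :
    bas A (insert (x, m) T) k = (if m ≤ ab (k x) then 1 else 0) * bas A T k := by
  unfold bas
  by_cases h : ∀ p ∈ insert (x, m) T, p.2 ≤ ab (k p.1)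
  · have h' := (Finset.forall_mem_insert _ _ _).1 h
    rw [if_pos h, if_pos h'.1, if_pos h'.2, one_mul]
  · rw [if_neg h]
    split_ifs with h1 h2
    · exact absurd ⟨h1, h2⟩ ((Finset.forall_mem_insert _ _ _).not.1 h)
    all_goals simp

theorem E7_cons (A : List (ℤ × ℤ)) (T : Finset ((ℤ × ℤ) × ℤ)) (x : ℤ × ℤ) (k : Cfg) :
    bas (x :: A) T k = sg (k x) * bas A T k := by
  simp only [bas, List.map_cons, List.prod_cons, mul_assoc]

theorem E7_ind (s t : ℤ) : (if s = t then 1 else 0 : ℝ) = (1 + sg t * sg s) / 2 *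
    ((if ab t ≤ ab s then 1 else 0) - if ab t + 1 ≤ ab s then 1 else 0) := by
  unfold sg
  split_ifs <;> first | (unfold ab at *; omega) | norm_num

theorem E7_key (N : ℕ) (S : Finset (ℤ × ℤ)) : ∀ F : Cfg → ℝ, LocV S F → ∀ A T,
    E7_gd N fun k => F k * bas A T k := by
  induction S using Finset.induction_on with
  | empty =>
    exact fun F hF A T => E7_congr (E7_mul (F 0) (conv_bas N A T)) fun k _ => by
      rw [hF k 0 (by simp)]
  | insert x S hx ih =>
    intro F hF A T
    have h := fun t => ih (fun k => F (Function.update k x t)) fun k k' e => hF _ _ fun y hy => by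
      by_cases h : y = x
      · simp [h]
      · rw [Function.update_of_ne h, Function.update_of_ne h]
        exact e y ((Finset.mem_insert.1 hy).resolve_left h)
    refine E7_congr (E7_sum (Finset.Icc (-((N : ℤ) + 1)) N) fun t => E7_add
      (E7_add (E7_mul (1 / 2) (h t A (insert (x, ab t) T)))
        (E7_mul (-1 / 2) (h t A (insert (x, ab t + 1) T))))
      (E7_add (E7_mul (sg t / 2) (h t (x :: A) (insert (x, ab t) T)))
        (E7_mul (-sg t / 2) (h t (x :: A) (insert (x, ab t + 1) T))))) fun k hk => ?_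
    refine (Finset.sum_congr rfl fun t _ => ?_).trans ((Finset.sum_ite_eq _ (k x)
      fun t => F (Function.update k x t) * bas A T k).trans ?_)
    · rw [← boole_mul, E7_ind]
      simp only [E7_cons, E7_ins]
      ring
    · rw [if_pos (Finset.mem_Icc.2 (hk x)), Function.update_eq_self]

theorem conv (N : ℕ) {S : Finset (ℤ × ℤ)} {F : Cfg → ℝ} (hF : LocV S F) (c : ℤ × ℤ) :
    Tendsto (fun n => avH N c n F) atTop (𝓝 (limE N F)) := by
  obtain ⟨l, h⟩ := E7_congr (E7_key N S F hF [] ∅) (G := F) fun k _ => by simp [bas]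
  rw [limE, (h 0).limUnder_eq]
  exact h c

end Vale.Agent.P153E
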