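import Vale.Agent.P153E.E1

/-! Port of P153/A3.lean (avE_bij, Lip.shift, Lip.rot, Lip.rfl0, mem_hexA). flip: ψ k x = if x ∈ L then -1 - k x else 0 is an involution of AdmE when Cl D L (an edge leaving L has both ends off D; lip_iff). -/

open MeasureTheory Filter Topology

noncomputable section

namespace Vale.Agent.P153E

open Vale.Agent.P153

theorem E8_map {N n : ℕ} {c c' : ℤ × ℤ} {k : Cfg} (hk : k ∈ AdmE N (hexA c n) (hexA c (n + 1)))
    (φ : ℤ × ℤ → ℤ × ℤ) (hl : Lip fun x => k (φ x)) (e : ∀ x, hx (φ x - c) = hx (x - c')) :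
    (fun x => k (φ x)) ∈ AdmE N (hexA c' n) (hexA c' (n + 1)) :=
  ⟨hl, fun x => hk.2.1 _, fun x h => hk.2.2.1 _ fun h' => h (mem_hexA.2 (e x ▸ mem_hexA.1 h')),
    fun x h => hk.2.2.2 _ fun h' => h (mem_hexA.2 (e x ▸ mem_hexA.1 h'))⟩

theorem E8_max (a b c : ℤ) : max |a| (max |b| |c|) = max |-b| (max |c| |a|) := by
  rw [abs_neg, ← max_assoc |b|, max_comm |a|]

theorem E8_rot {N n : ℕ} {k : Cfg} (hk : k ∈ AdmE N (hexA 0 n) (hexA 0 (n + 1))) :
    (fun x => k (rot x)) ∈ AdmE N (hexA 0 n) (hexA 0 (n + 1)) :=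
  E8_map hk rot hk.1.rot fun x => by
    simp only [hx, rot, sub_zero, neg_add_cancel_comm_assoc]
    exact (E8_max _ _ _).symm

theorem E8_rfl0 {N n : ℕ} {k : Cfg} (hk : k ∈ AdmE N (hexA 0 n) (hexA 0 (n + 1))) :
    (fun x => k (rfl0 x)) ∈ AdmE N (hexA 0 n) (hexA 0 (n + 1)) :=
  E8_map hk rfl0 hk.1.rfl0 fun x => by
    simp only [hx, rfl0, sub_zero, add_neg_cancel_right, abs_neg]
    rw [max_left_comm, max_comm |x.1 + x.2|, max_left_comm]

theorem avH_shift (N n : ℕ) (F : Cfg → ℝ) (y : ℤ × ℤ) :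
    avH N y n (fun k => F fun x => k (x + y)) = avH N 0 n F := by
  refine avE_bij (fun k x => k (x + y)) (fun k x => k (x + -y))
    (fun k hk => E8_map hk (· + y) (hk.1.shift y) fun x => ?_)
    (fun k hk => E8_map hk (· + -y) (hk.1.shift (-y)) fun x => ?_) (fun k _ => ?_)
    (fun k _ => ?_) F
  · rw [add_sub_cancel_right, sub_zero]
  · rw [sub_zero, ← sub_eq_add_neg]
  · funext x
    simp only [neg_add_cancel_right]
  · funext x
    simp only [add_neg_cancel_right]

theorem avH_rot (N n : ℕ) (F : Cfg → ℝ) : avH N 0 n (fun k => F fun x => k (rot x)) = avH N 0 n F := by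
  have e : ∀ x : ℤ × ℤ, rot (rot (rot (rot (rot (rot x))))) = x := fun x => by
    ext <;> simp only [rot] <;> ring
  exact avE_bij (fun k x => k (rot x)) (fun k x => k (rot (rot (rot (rot (rot x))))))
    (fun k hk => E8_rot hk) (fun k hk => E8_rot (E8_rot (E8_rot (E8_rot (E8_rot hk)))))
    (fun k _ => funext fun x => congrArg k (e x)) (fun k _ => funext fun x => congrArg k (e x)) F

theorem avH_rfl0 (N n : ℕ) (F : Cfg → ℝ) :
    avH N 0 n (fun k => F fun x => k (rfl0 x)) = avH N 0 n F := by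
  have e : ∀ x : ℤ × ℤ, rfl0 (rfl0 x) = x := fun x => by
    ext <;> simp only [rfl0] <;> ring
  exact avE_bij (fun k x => k (rfl0 x)) (fun k x => k (rfl0 x))
    (fun k hk => E8_rfl0 hk) (fun k hk => E8_rfl0 hk)
    (fun k _ => funext fun x => congrArg k (e x)) (fun k _ => funext fun x => congrArg k (e x)) F

theorem E8_flip {N : ℕ} {D L : Finset (ℤ × ℤ)} (h : Cl D L) {k : Cfg} (hk : k ∈ AdmE N D L) :
    (fun x => if x ∈ L then -1 - k x else 0) ∈ AdmE N D L := by
  refine ⟨lip_iff.2 fun x y hxy => ?_, fun x => ?_, fun x hx => ?_, fun x hx => if_neg hx⟩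
  · have h1 := abs_le.1 (lip_iff.1 hk.1 x y hxy)
    rw [abs_le]
    by_cases a : x ∈ L <;> by_cases b : y ∈ L <;> simp only [a, b, if_true, if_false]
    · omega
    · have := hk.2.2.1 x fun hD => b (h x hD y hxy)
      omega
    · have := hk.2.2.1 y fun hD => a (h y hD x (by rwa [← hx_neg, neg_sub]))
      omega
    · omega
  · have := hk.2.1 x
    beta_reduce
    split_ifs <;> omega
  · have := hk.2.2.1 x hx
    beta_reduce
    split_ifs <;> omega

theorem avE_flip {N : ℕ} {D L : Finset (ℤ × ℤ)} (h : Cl D L) (F : Cfg → ℝ) :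
    avE N D L (fun k => F fun x => if x ∈ L then -1 - k x else 0) = avE N D L F := by
  have e : ∀ k ∈ AdmE N D L,
      (fun x => if x ∈ L then -1 - (if x ∈ L then -1 - k x else 0) else 0) = k := fun k hk => by
    funext x
    split_ifs with a
    · ring
    · exact (hk.2.2.2 x a).symm
  exact avE_bij (fun k x => if x ∈ L then -1 - k x else 0)
    (fun k x => if x ∈ L then -1 - k x else 0) (fun k hk => E8_flip h hk)
    (fun k hk => E8_flip h hk) e e F

theorem avH_neg (N n : ℕ) {S : Finset (ℤ × ℤ)} {F : Cfg → ℝ} (hF : Loc S F) (hS : S ⊆ hexA 0 (n + 1)) :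
    avH N 0 n (fun k => F fun x => -k x) = avH N 0 n F := by
  refine Eq.trans (avE_congr fun k _ => hF _ _ fun x hx y hy => ?_) (avE_flip (cl_hex 0 n) F)
  simp only [hS hx, hS hy, if_true]
  ring

end Vale.Agent.P153E
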