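import Vale.Agent.P153E.E1

/-! Ports of P153/A4.lean (copy a4_adm, a4_fib, avA_rp with AdmE; reuse a4_glue, a4_up, a4_down, a4_invol, a4_rr) and of P153/A6.lean (P152.pl with ι = ↥L, extension by zero a2_ext L; the two midpoints of members of AdmE are in AdmE: a6_mid, omega). -/

open MeasureTheory Filter Topology

noncomputable section

namespace Vale.Agent.P153E

open Vale.Agent.P153

theorem E9_adm {N : ℕ} {D L : Finset (ℤ × ℤ)} {a b : Cfg} (ha : a ∈ AdmE N D L)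
    (hb : b ∈ AdmE N D L) (e : ∀ i : ℤ, a (i, 0) = b (i, 0)) : a4_glue a b ∈ AdmE N D L := by
  have key : ∀ x, a4_glue a b x = a x ∨ a4_glue a b x = b x := fun x => by
    unfold a4_glue
    split_ifs
    · exact Or.inl rfl
    · exact Or.inr rfl
  refine ⟨fun x => ?_, fun x => ?_, fun x hx => ?_, fun x hx => ?_⟩
  · by_cases h : 0 ≤ x.2
    · rw [a4_up a b h, a4_up a b (x := x + (1, 0)) (by simpa using h),
        a4_up a b (x := x + (0, 1)) (by simp; omega), a4_up a b (x := x + (-1, 1)) (by simp; omega)]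
      exact ha.1 x
    · rw [a4_down e (not_le.1 h).le, a4_down e (x := x + (1, 0)) (by simp; omega),
        a4_down e (x := x + (0, 1)) (by simp; omega), a4_down e (x := x + (-1, 1)) (by simp; omega)]
      exact hb.1 x
  · rcases key x with h | h <;> rw [h]
    · exact ha.2.1 x
    · exact hb.2.1 x
  · rcases key x with h | h <;> rw [h]
    · exact ha.2.2.1 x hx
    · exact hb.2.2.1 x hx
  · rcases key x with h | h <;> rw [h]
    · exact ha.2.2.2 x hx
    · exact hb.2.2.2 x hx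

theorem E9_hex {n : ℕ} {x : ℤ × ℤ} (h : x ∉ hexA 0 n) : rfl0 x ∉ hexA 0 n := by
  simp only [mem_hexA, not_le, hx, rfl0, sub_zero, lt_max_iff, lt_abs] at h ⊢
  omega

theorem E9_rfl {N n m : ℕ} {k : Cfg} (h : k ∈ AdmE N (hexA 0 n) (hexA 0 m)) :
    (fun x => k (rfl0 x)) ∈ AdmE N (hexA 0 n) (hexA 0 m) :=
  ⟨h.1.rfl0, fun _ => h.2.1 _, fun _ hx => h.2.2.1 _ (E9_hex hx), fun _ hx => h.2.2.2 _ (E9_hex hx)⟩

theorem E9_fib {N n m : ℕ} {S : Finset (ℤ × ℤ)} {F : Cfg → ℝ} (hF : Loc S F)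
    (hS : ∀ x ∈ S, 0 ≤ x.2) (A : Finset Cfg) (r : ℤ → ℤ)
    (hA : ∀ k, k ∈ A ↔ k ∈ AdmE N (hexA 0 n) (hexA 0 m) ∧ ∀ i, k (i, 0) = r i) :
    0 ≤ ∑ k ∈ A, F k * F fun x => k (rfl0 x) := by
  have hg : ∀ a ∈ A, ∀ b ∈ A, ∀ i : ℤ, a (i, 0) = b (i, 0) := fun a ha b hb i =>
    (((hA a).1 ha).2 i).trans (((hA b).1 hb).2 i).symm
  have hm : ∀ a ∈ A, ∀ b ∈ A, a4_glue a b ∈ A := fun a ha b hb =>
    (hA _).2 ⟨E9_adm ((hA a).1 ha).1 ((hA b).1 hb).1 (hg a ha b hb), fun i =>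
      (a4_up a b le_rfl).trans (((hA a).1 ha).2 i)⟩
  have hr : ∀ k ∈ A, (fun x => k (rfl0 x)) ∈ A := fun k hk =>
    (hA _).2 ⟨E9_rfl ((hA k).1 hk).1, fun i => by simpa [rfl0] using ((hA k).1 hk).2 i⟩
  have h1 : ∑ b ∈ A, (F fun x => b (rfl0 x)) = ∑ b ∈ A, F b :=
    Finset.sum_nbij' (fun k x => k (rfl0 x)) (fun k x => k (rfl0 x)) hr hr
      (fun k _ => funext fun x => congrArg k (a4_rr x))
      (fun k _ => funext fun x => congrArg k (a4_rr x)) fun _ _ => rfl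
  have h2 : ∑ q ∈ A ×ˢ A, F q.1 * F (fun x => q.2 (rfl0 x)) =
      ∑ q ∈ A ×ˢ A, F q.1 * F fun x => q.1 (rfl0 x) := by
    have hm' : ∀ q ∈ A ×ˢ A, (a4_glue q.1 q.2, a4_glue q.2 q.1) ∈ A ×ˢ A := fun q hq =>
      Finset.mem_product.2 ⟨hm _ (Finset.mem_product.1 hq).1 _ (Finset.mem_product.1 hq).2,
        hm _ (Finset.mem_product.1 hq).2 _ (Finset.mem_product.1 hq).1⟩
    refine Finset.sum_nbij' (fun q => (a4_glue q.1 q.2, a4_glue q.2 q.1))
      (fun q => (a4_glue q.1 q.2, a4_glue q.2 q.1)) hm' hm'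
      (fun q _ => Prod.ext (a4_invol _ _) (a4_invol _ _))
      (fun q _ => Prod.ext (a4_invol _ _) (a4_invol _ _)) fun q hq => ?_
    have e := hg _ (Finset.mem_product.1 hq).1 _ (Finset.mem_product.1 hq).2
    have h3 : ∀ x ∈ S, (rfl0 x).2 ≤ 0 := fun x hx => neg_nonpos.2 (hS x hx)
    refine congrArg₂ (· * ·) (hF _ _ fun x hx y hy => ?_) (hF _ _ fun x hx y hy => ?_)
    · dsimp only
      rw [a4_up _ _ (hS x hx), a4_up _ _ (hS y hy)]
    · dsimp only
      rw [a4_down e (h3 x hx), a4_down e (h3 y hy)]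
  rw [Finset.sum_product, Finset.sum_product] at h2
  simp only [Finset.sum_const, nsmul_eq_mul] at h2
  rw [← Finset.sum_mul_sum, h1, ← Finset.mul_sum] at h2
  rcases A.eq_empty_or_nonempty with rfl | h0
  · simp
  · have h4 : (0 : ℝ) < A.card := Nat.cast_pos.2 h0.card_pos
    exact (mul_nonneg_iff_of_pos_left h4).1 (h2 ▸ mul_self_nonneg _)

theorem avH_rp (N n : ℕ) {S : Finset (ℤ × ℤ)} {F : Cfg → ℝ} (hF : Loc S F) (hS : ∀ x ∈ S, 0 ≤ x.2) :
    0 ≤ avH N 0 n fun k => F k * F fun x => k (rfl0 x) := by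
  classical
  refine div_nonneg ?_ (Nat.cast_nonneg _)
  rw [← Finset.sum_fiberwise_of_maps_to (g := fun (k : Cfg) (i : ℤ) => k (i, 0))
    (t := (admE N (hexA 0 n) (hexA 0 (n + 1))).image fun (k : Cfg) (i : ℤ) => k (i, 0))
    fun k hk => Finset.mem_image_of_mem _ hk]
  exact Finset.sum_nonneg fun r _ => E9_fib (N := N) (n := n) (m := n + 1) hF hS _ r fun k => by
    rw [Finset.mem_filter, mem_admE, funext_iff]

open Classical in
/-- A function read on `L`. -/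
def E9_f (N : ℕ) (D L : Finset (ℤ × ℤ)) (F : Cfg → ℝ) (t : L → ℤ) : ℝ :=
  if a2_ext L t ∈ AdmE N D L then F (a2_ext L t) else 0

theorem E9_mid {N : ℕ} {D L : Finset (ℤ × ℤ)} {a b : Cfg} (ha : a ∈ AdmE N D L)
    (hb : b ∈ AdmE N D L) {c : ℤ} (h0 : 0 ≤ c) (h1 : c ≤ 1) :
    (fun x => (a x + b x + c) / 2) ∈ AdmE N D L := by
  refine ⟨a6_mid ha.1 hb.1 c, fun x => ?_, fun x hx => ?_, fun x hx => ?_⟩
  · have h2 := ha.2.1 x
    have h3 := hb.2.1 x
    dsimp only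
    omega
  · have h2 := ha.2.2.1 x hx
    have h3 := hb.2.2.1 x hx
    dsimp only
    omega
  · have h2 := ha.2.2.2 x hx
    have h3 := hb.2.2.2 x hx
    dsimp only
    omega

theorem E9_res {N : ℕ} {D L : Finset (ℤ × ℤ)} {k : Cfg} (hk : k ∈ admE N D L) :
    a2_ext L (fun x => k x) = k := by
  funext x
  unfold a2_ext
  split_ifs with h
  · rfl
  · exact ((mem_admE.1 hk).2.2.2 x h).symm

theorem E9_sum (N : ℕ) (D L : Finset (ℤ × ℤ)) (F : Cfg → ℝ) :
    ∑ t ∈ (admE N D L).image fun (k : Cfg) (x : L) => k x, E9_f N D L F t =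
      ∑ k ∈ admE N D L, F k := by
  rw [Finset.sum_image fun k hk k' hk' e => by rw [← E9_res hk, ← E9_res hk', e]]
  exact Finset.sum_congr rfl fun k hk => by rw [E9_f, E9_res hk, if_pos (mem_admE.1 hk)]

theorem E9_out (N : ℕ) (D L : Finset (ℤ × ℤ)) (F : Cfg → ℝ) (t : L → ℤ)
    (ht : t ∉ (admE N D L).image fun (k : Cfg) (x : L) => k x) : E9_f N D L F t = 0 := by
  refine if_neg fun h => ht (Finset.mem_image.2 ⟨a2_ext L t, mem_admE.2 h, ?_⟩)
  funext x
  exact dif_pos x.2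

theorem E9_nonneg (N : ℕ) (D L : Finset (ℤ × ℤ)) {F : Cfg → ℝ} (hF : ∀ k, 0 ≤ F k) (t : L → ℤ) :
    0 ≤ E9_f N D L F t := by
  unfold E9_f
  split_ifs
  · exact hF _
  · exact le_rfl

theorem avE_pl (N : ℕ) (D L : Finset (ℤ × ℤ)) {F G U V : Cfg → ℝ} (hF : ∀ k, 0 ≤ F k)
    (hG : ∀ k, 0 ≤ G k) (hU : ∀ k, 0 ≤ U k) (hV : ∀ k, 0 ≤ V k)
    (h : ∀ a ∈ AdmE N D L, ∀ b ∈ AdmE N D L,
      F a * G b ≤ U (fun x => (a x + b x) / 2) * V (fun x => (a x + b x + 1) / 2)) :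
    avE N D L F * avE N D L G ≤ avE N D L U * avE N D L V := by
  have h1 := P152.pl ((admE N D L).image fun (k : Cfg) (x : L) => k x) (E9_f N D L F)
    (E9_f N D L G) (E9_f N D L U) (E9_f N D L V) (E9_nonneg N D L hF) (E9_nonneg N D L hG)
    (E9_nonneg N D L hU) (E9_nonneg N D L hV)
    (fun t ht => ⟨E9_out N D L F t ht, E9_out N D L G t ht, E9_out N D L U t ht,
      E9_out N D L V t ht⟩) fun s t => ?_
  · simp only [E9_sum] at h1
    rw [avE, avE, avE, avE, div_mul_div_comm, div_mul_div_comm]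
    exact div_le_div_of_nonneg_right h1 (by positivity)
  · have h0 := mul_nonneg (E9_nonneg N D L hU fun i => (s i + t i) / 2)
      (E9_nonneg N D L hV fun i => (s i + t i + 1) / 2)
    by_cases a : a2_ext L s ∈ AdmE N D L
    · by_cases b : a2_ext L t ∈ AdmE N D L
      · have e1 : a2_ext L (fun i => (s i + t i) / 2) =
            fun x => (a2_ext L s x + a2_ext L t x) / 2 := by
          funext x
          unfold a2_ext
          split_ifs <;> rfl
        have e2 : a2_ext L (fun i => (s i + t i + 1) / 2) =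
            fun x => (a2_ext L s x + a2_ext L t x + 1) / 2 := by
          funext x
          unfold a2_ext
          split_ifs <;> rfl
        have c1 := E9_mid a b le_rfl zero_le_one
        simp only [add_zero] at c1
        rw [E9_f, E9_f, E9_f, E9_f, e1, e2, if_pos a, if_pos b, if_pos c1,
          if_pos (E9_mid a b zero_le_one le_rfl)]
        exact h _ a _ b
      · rwa [show E9_f N D L G t = 0 from if_neg b, mul_zero]
    · rwa [show E9_f N D L F s = 0 from if_neg a, zero_mul]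

end Vale.Agent.P153E
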