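import Vale.Agent.P153E.Defs
import Vale.Agent.P153.E7

/-! Reflection positivity excludes a slope. -/

open MeasureTheory Filter Topology

noncomputable section

namespace Vale.Agent.P153E

open Vale.Agent.P153

theorem sub_of {P : Measure Cfg} [IsProbabilityMeasure P] (lip : ∀ᵐ k ∂P, Lip k ∧ k 0 = 0)
    (shift : ∀ S F, Loc S F → ∀ y : ℤ × ℤ, ∫ k, F (fun x => k (x + y)) ∂P = ∫ k, F k ∂P)
    (rot : ∀ S F, Loc S F → ∫ k, F (fun x => k (rot x)) ∂P = ∫ k, F k ∂P)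
    (rp : ∀ S F, Loc S F → (∀ x ∈ S, 0 ≤ x.2) → 0 ≤ ∫ k, F k * F (fun x => k (rfl0 x)) ∂P) :
    Tendsto (fun n : ℕ => (∫ k, ((k (n, 0) - k 0 : ℤ) : ℝ) ^ 2 ∂P) / (n : ℝ) ^ 2) atTop (𝓝 0) :=
  sub_of_rp lip shift rot rp

end Vale.Agent.P153E
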