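import Vale.Agent.P153E.Defs

/-! Compactness: a convergent subsequence of laws carried by a fixed compact set. -/

open MeasureTheory Filter Topology

noncomputable section

namespace Vale.Agent.P153E

open Vale.Agent.P153

theorem subseq (μ : ℕ → Measure Cfg) [∀ j, IsProbabilityMeasure (μ j)]
    (h : ∀ j, ∀ᵐ k ∂μ j, ∀ x : ℤ × ℤ, |k x| ≤ |x.1| + |x.2|) :
    ∃ (φ : ℕ → ℕ) (P : Measure Cfg), StrictMono φ ∧ IsProbabilityMeasure P ∧
      (∀ᵐ k ∂P, ∀ x : ℤ × ℤ, |k x| ≤ |x.1| + |x.2|) ∧ ∀ (S : Finset (ℤ × ℤ)) (η : Cfg),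
        Tendsto (fun j => (μ (φ j)).real {k | ∀ x ∈ S, k x = η x}) atTop
          (𝓝 (P.real {k | ∀ x ∈ S, k x = η x})) := by
  let K : Set Cfg := Set.pi Set.univ fun x => Set.Icc (-(|x.1| + |x.2|)) (|x.1| + |x.2|)
  have hK : IsCompact K := isCompact_univ_pi fun x => (Set.finite_Icc _ _).isCompact
  have eK : ∀ ν : Measure Cfg, (∀ᵐ k ∂ν, ∀ x : ℤ × ℤ, |k x| ≤ |x.1| + |x.2|) ↔ ν Kᶜ = 0 :=
    fun ν => by
      have : {k : Cfg | ∀ x : ℤ × ℤ, |k x| ≤ |x.1| + |x.2|} = K := by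
        ext k
        simp only [K, Set.mem_ofPred_eq, Set.mem_pi, Set.mem_univ, true_imp_iff, Set.mem_Icc, abs_le]
      rw [← this]
      rfl
  have hC := isCompact_setOfPred_probabilityMeasure_mass_eq_compl_isCompact_le (E := Cfg)
    (u := fun _ => 0) (K := fun _ => K) tendsto_const_nhds (fun _ => hK) (Or.inr monotone_const)
  let ν : ℕ → ProbabilityMeasure Cfg := fun j => ⟨μ j, inferInstance⟩
  obtain ⟨P, hP, φ, hφ, hT⟩ := hC.tendsto_subseq (x := ν) fun j n => by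
    have h1 : (ν j : Measure Cfg) Kᶜ = 0 := (eK _).1 (h j)
    simp only [nonpos_iff_eq_zero]
    exact (ProbabilityMeasure.null_iff_toMeasure_null _ _).2 h1
  refine ⟨φ, P, hφ, inferInstance, (eK _).2 ?_, fun S η => ?_⟩
  · exact (ProbabilityMeasure.null_iff_toMeasure_null _ _).1 (nonpos_iff_eq_zero.1 (hP 0))
  · have hc : IsClopen {k : Cfg | ∀ x ∈ S, k x = η x} := by
      have : {k : Cfg | ∀ x ∈ S, k x = η x} = ⋂ x ∈ S, (fun k : Cfg => k x) ⁻¹' {η x} := by
        ext k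
        simp
      rw [this]
      exact isClopen_biInter_finset fun x _ => (isClopen_discrete _).preimage (continuous_apply x)
    exact NNReal.tendsto_coe.2 (ProbabilityMeasure.tendsto_measure_of_isClopen_of_tendsto hT hc)

end Vale.Agent.P153E
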