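import Vale.Agent.P153E.E7
import Vale.Agent.P153E.F2

/-! μ N n = (card)⁻¹ • ∑ k ∈ admE .., dirac (fun x => k x - k 0), with μ.real {k = η on S} = avH N 0 n (pat S η) (a2_meas, a2_bd). subseq for fixed N gives P N with (P N).real = limE N (pat S η) (conv, loc_pat, uniqueness of limits); subseq again. a N = limE N (pat S η), confP_eq. -/

open MeasureTheory Filter Topology

noncomputable section

namespace Vale.Agent.P153E

open Vale.Agent.P153

theorem F3_fin (s : Finset Cfg) (hs : 0 < s.card) (hl : ∀ k ∈ s, Lip k) :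
    ∃ μ : Measure Cfg, IsProbabilityMeasure μ ∧ (∀ᵐ k ∂μ, ∀ x : ℤ × ℤ, |k x| ≤ |x.1| + |x.2|) ∧
      ∀ (S : Finset (ℤ × ℤ)) (η : Cfg),
        μ.real {k | ∀ x ∈ S, k x = η x} = (∑ k ∈ s, pat S η k) / s.card := by
  refine ⟨(s.card : ENNReal)⁻¹ • ∑ k ∈ s, Measure.dirac (fun x => k x - k 0 : Cfg), ⟨?_⟩, ?_,
    fun S η => ?_⟩
  · rw [Measure.smul_apply, Measure.finsetSum_apply]
    simp only [measure_univ, Finset.sum_const, nsmul_eq_mul, mul_one, smul_eq_mul]
    exact ENNReal.inv_mul_cancel (by exact_mod_cast hs.ne') (ENNReal.natCast_ne_top _)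
  · refine Measure.ae_smul_measure ?_ _
    rw [ae_finsetSum_measure_iff]
    intro k hk
    rw [ae_dirac_eq]
    exact a2_bd (hl k hk)
  · rw [measureReal_def, Measure.smul_apply, Measure.finsetSum_apply, smul_eq_mul,
      ENNReal.toReal_mul, ENNReal.toReal_sum fun k _ => measure_ne_top _ _, ENNReal.toReal_inv,
      ENNReal.toReal_natCast, div_eq_inv_mul]
    congr 1
    refine Finset.sum_congr rfl fun k _ => ?_
    rw [Measure.dirac_apply' _ (a2_meas S η), pat]
    split_ifs with h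
    · rw [Set.indicator_of_mem (by exact h)]
      simp
    · rw [Set.indicator_of_notMem (by exact h)]
      simp

theorem F3_lim (N : ℕ) :
    ∃ μ : Measure Cfg, IsProbabilityMeasure μ ∧ (∀ᵐ k ∂μ, ∀ x : ℤ × ℤ, |k x| ≤ |x.1| + |x.2|) ∧
      ∀ (S : Finset (ℤ × ℤ)) (η : Cfg),
        μ.real {k | ∀ x ∈ S, k x = η x} = limE N (pat S η) := by
  choose μ h1 h2 h3 using fun n : ℕ => F3_fin (admE N (hexA 0 n) (hexA 0 (n + 1)))
    (card_admE _ _ _) fun k hk => (mem_admE.1 hk).1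
  obtain ⟨φ, P, hφ, hP, hb, ht⟩ := subseq μ h2
  refine ⟨P, hP, hb, fun S η => tendsto_nhds_unique (ht S η) ?_⟩
  simp only [h3]
  exact (conv N (Loc.locV (loc_pat S η)) 0).comp hφ.tendsto_atTop

theorem exists_iter : ∃ P : Measure Cfg, IsProbabilityMeasure P ∧ IsIter P := by
  choose μ h1 h2 h3 using F3_lim
  obtain ⟨φ, P, hφ, hP, -, ht⟩ := subseq μ h2
  refine ⟨P, hP, φ, hφ, fun S η => ⟨fun N => limE N (pat S η), fun N => ?_, ?_⟩⟩
  · simp only [confP_eq]
    exact conv N (Loc.locV (loc_pat S η)) 0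
  · simpa only [h3] using ht S η

end Vale.Agent.P153E
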