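import Vale.Agent.P153E.E7

/-! Port of P153/A2.lean: a2_null, a2_edge, lip_of_lim, tend_avA (reuse a2_ext, a2_T, a2_sum, a2_meas, a2_bd). a N = limE N (pat S η) by conv, loc_pat, confP_eq; limE N F = ∑ t ∈ a2_T S, F (a2_ext S t) * limE N (pat S (a2_ext S t)). -/

open MeasureTheory Filter Topology

noncomputable section

namespace Vale.Agent.P153E

open Vale.Agent.P153

theorem F4_tend {P : Measure Cfg} (h : IsIter P) :
    ∃ φ : ℕ → ℕ, StrictMono φ ∧ ∀ S η, Tendsto (fun j => limE (φ j) (pat S η)) atTop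
      (𝓝 (P.real {k | ∀ x ∈ S, k x = η x})) := by
  obtain ⟨φ, hφ, h⟩ := h
  refine ⟨φ, hφ, fun S η => ?_⟩
  obtain ⟨a, h1, h2⟩ := h S η
  have e : ∀ N, limE N (pat S η) = a N := fun N =>
    tendsto_nhds_unique (conv N (Loc.locV (loc_pat S η)) 0) (by simpa only [confP_eq] using h1 N)
  simpa only [e] using h2

theorem F4_null {P : Measure Cfg} [IsProbabilityMeasure P] (h : IsIter P) (S : Finset (ℤ × ℤ))
    (η : Cfg) (hη : ∀ k, Lip k → ¬∀ x ∈ S, k x - k 0 = η x) :
    ∀ᵐ k ∂P, ¬∀ x ∈ S, k x = η x := by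
  obtain ⟨φ, -, h⟩ := F4_tend h
  have h0 : ∀ N, limE N (pat S η) = 0 := fun N => by
    have e : ∀ n, avH N 0 n (pat S η) = 0 := fun n =>
      (avE_congr fun k hk => if_neg (hη k hk.1)).trans (avE_const _ _ _ 0)
    simp only [limE, e]
    exact tendsto_const_nhds.limUnder_eq
  have h1 := h S η
  simp only [h0] at h1
  have h2 := tendsto_nhds_unique h1 tendsto_const_nhds
  rw [measureReal_eq_zero_iff] at h2
  rw [ae_iff]
  simpa only [not_not] using h2

theorem F4_edge {P : Measure Cfg} [IsProbabilityMeasure P] (h : IsIter P) {e : ℤ × ℤ} (he : e ≠ 0)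
    (hl : ∀ k, Lip k → ∀ x, |k (x + e) - k x| ≤ 1) : ∀ᵐ k ∂P, ∀ x, |k (x + e) - k x| ≤ 1 := by
  refine ae_all_iff.2 fun x => ?_
  have hx : x + e ≠ x := by simpa using he
  have h1 : ∀ᵐ k ∂P, ∀ a b : ℤ, 1 < |b - a| → ¬(k x = a ∧ k (x + e) = b) := by
    refine ae_all_iff.2 fun a => ae_all_iff.2 fun b => ?_
    by_cases hab : 1 < |b - a|
    · have h2 := F4_null h {x, x + e} (fun z => if z = x then a else b) fun k hk h3 => by
        have h4 := h3 x (by simp)
        have h5 := h3 (x + e) (by simp)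
        simp only [if_true, if_neg hx] at h4 h5
        have h6 := hl k hk x
        have h7 : b - a = k (x + e) - k x := by omega
        rw [h7] at hab
        omega
      filter_upwards [h2] with k hk _ h3
      refine hk fun z hz => ?_
      rcases Finset.mem_insert.1 hz with rfl | hz
      · simp [h3.1]
      · rw [Finset.mem_singleton.1 hz, if_neg hx, h3.2]
    · exact Eventually.of_forall fun k h3 => absurd h3 hab
  filter_upwards [h1] with k hk
  by_contra h2
  exact hk _ _ (not_le.1 h2) ⟨rfl, rfl⟩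

theorem lip_of_iter {P : Measure Cfg} [IsProbabilityMeasure P] (h : IsIter P) :
    ∀ᵐ k ∂P, Lip k ∧ k 0 = 0 := by
  have h0 : ∀ᵐ k ∂P, ∀ a : ℤ, a ≠ 0 → k 0 ≠ a := by
    refine ae_all_iff.2 fun a => ?_
    by_cases ha : a = 0
    · exact Eventually.of_forall fun k h3 => absurd ha h3
    · have h2 := F4_null h {0} (fun _ => a) fun k _ h3 => by
        have h4 := h3 0 (by simp)
        exact ha (by omega)
      filter_upwards [h2] with k hk _ h3
      exact hk fun z hz => by rw [Finset.mem_singleton.1 hz, h3]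
  filter_upwards [h0, F4_edge h (e := (1, 0)) (by decide) fun k hk x => (hk x).1,
    F4_edge h (e := (0, 1)) (by decide) fun k hk x => (hk x).2.1,
    F4_edge h (e := (-1, 1)) (by decide) fun k hk x => (hk x).2.2] with k k0 k1 k2 k3
  refine ⟨fun x => ⟨k1 x, k2 x, k3 x⟩, ?_⟩
  by_contra h1
  exact k0 _ h1 rfl

theorem F4_lim (N : ℕ) {S : Finset (ℤ × ℤ)} {F : Cfg → ℝ} (hF : Loc S F) :
    limE N F = ∑ t ∈ a2_T S, F (a2_ext S t) * limE N (pat S (a2_ext S t)) := by
  have e : ∀ n, avH N 0 n F = ∑ t ∈ a2_T S, F (a2_ext S t) * avH N 0 n (pat S (a2_ext S t)) :=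
    fun n => by
      simp only [avH, ← avE_mul, ← avE_sum]
      exact avE_congr fun k hk => a2_sum hF hk.1
  refine tendsto_nhds_unique (conv N (Loc.locV hF) 0) ?_
  simp only [e]
  exact tendsto_finsetSum _ fun t _ => (conv N (Loc.locV (loc_pat S _)) 0).const_mul _

theorem tend_iter {P : Measure Cfg} [IsProbabilityMeasure P] (h : IsIter P) :
    ∃ φ : ℕ → ℕ, StrictMono φ ∧ ∀ S F, Loc S F →
      Tendsto (fun j => limE (φ j) F) atTop (𝓝 (∫ k, F k ∂P)) := by
  obtain ⟨φ, hφ, h1⟩ := F4_tend h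
  refine ⟨φ, hφ, fun S F hF => ?_⟩
  have h2 : ∫ k, F k ∂P =
      ∑ t ∈ a2_T S, F (a2_ext S t) * P.real {k | ∀ x ∈ S, k x = a2_ext S t x} := by
    have e : F =ᵐ[P] fun k => ∑ t ∈ a2_T S, F (a2_ext S t) *
        {k : Cfg | ∀ x ∈ S, k x = a2_ext S t x}.indicator 1 k := by
      filter_upwards [lip_of_iter h] with k hk
      rw [a2_sum hF hk.1]
      refine Finset.sum_congr rfl fun t _ => ?_
      simp only [hk.2, sub_zero, Set.indicator_apply, Set.mem_ofPred_eq, Pi.one_apply]
    rw [integral_congr_ae e, integral_finsetSum _ fun t _ =>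
      ((integrable_const 1).indicator (a2_meas S _)).const_mul _]
    exact Finset.sum_congr rfl fun t _ => by
      rw [integral_const_mul, integral_indicator_one (a2_meas S _)]
  simp only [F4_lim _ hF, h2]
  exact tendsto_finsetSum _ fun t _ => (h1 S _).const_mul _

end Vale.Agent.P153E
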