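import Vale.Agent.P153E.F4
import Vale.Agent.P153E.E8
import Vale.Agent.P153E.E9
import Vale.Agent.P153E.F1

/-! Port of P153/A.lean in two steps: first the identities / inequalities for limE N (conv, Loc.compA, avH_shift .. avE_pl; neg eventually in n by ev_sub), then tend_iter. Products of local functions are local on the union of the supports. -/

open MeasureTheory Filter Topology

noncomputable section

namespace Vale.Agent.P153E

open Vale.Agent.P153

theorem F5_eq {N : ℕ} {S T : Finset (ℤ × ℤ)} {F G : Cfg → ℝ} (hF : Loc S F) (hG : Loc T G)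
    (c : ℤ × ℤ) (h : ∀ᶠ n in atTop, avH N c n G = avH N 0 n F) : limE N G = limE N F :=
  tendsto_nhds_unique (conv N (Loc.locV hG) c)
    ((conv N (Loc.locV hF) 0).congr' (h.mono fun _ e => e.symm))

theorem good_of_iter {P : Measure Cfg} [IsProbabilityMeasure P] (h : IsIter P) : Good P := by
  obtain ⟨φ, -, ht⟩ := tend_iter h
  have key : ∀ (S T : Finset (ℤ × ℤ)) (F G : Cfg → ℝ), Loc S F → Loc T G → ∀ c : ℤ × ℤ,
      (∀ N, ∀ᶠ n in atTop, avH N c n G = avH N 0 n F) → ∫ k, G k ∂P = ∫ k, F k ∂P :=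
    fun S T F G hF hG c e => tendsto_nhds_unique (ht T G hG)
      ((ht S F hF).congr fun j => (F5_eq hF hG c (e (φ j))).symm)
  have h1 : ∀ S F, Loc S F → ∀ y : ℤ × ℤ, ∫ k, F (fun x => k (x + y)) ∂P = ∫ k, F k ∂P :=
    fun S F hF y => key _ _ F _ hF (hF.compA (· + y)) y fun N =>
      Eventually.of_forall fun n => avH_shift N n F y
  have h2 : ∀ S F, Loc S F → ∫ k, F (fun x => k (rot x)) ∂P = ∫ k, F k ∂P :=
    fun S F hF => key _ _ F _ hF (hF.compA rot) 0 fun N =>
      Eventually.of_forall fun n => avH_rot N n F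
  have h3 : ∀ S F, Loc S F → ∫ k, F (fun x => k (rfl0 x)) ∂P = ∫ k, F k ∂P :=
    fun S F hF => key _ _ F _ hF (hF.compA rfl0) 0 fun N =>
      Eventually.of_forall fun n => avH_rfl0 N n F
  have h4 : ∀ S F, Loc S F → ∫ k, F (fun x => -k x) ∂P = ∫ k, F k ∂P := by
    intro S F hF
    refine key S S F (fun k => F fun x => -k x) hF (fun k k' e => hF _ _ fun x hx y hy => ?_) 0
      fun N => (ev_sub 0 S).mono fun n hn => avH_neg N n hF (hn.trans (cl_hex 0 n).subset)
    have := e x hx y hy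
    omega
  have h5 : ∀ S F, Loc S F → (∀ x ∈ S, 0 ≤ x.2) →
      0 ≤ ∫ k, F k * F (fun x => k (rfl0 x)) ∂P := by
    intro S F hF hS
    have hL : Loc (S ∪ S.image rfl0) fun k => F k * F (fun x => k (rfl0 x)) := fun k k' e =>
      congrArg₂ (· * ·)
        (hF k k' fun x hx y hy => e x (Finset.mem_union_left _ hx) y (Finset.mem_union_left _ hy))
        (hF.compA rfl0 k k' fun x hx y hy =>
          e x (Finset.mem_union_right _ hx) y (Finset.mem_union_right _ hy))
    exact ge_of_tendsto' (ht _ _ hL) fun j =>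
      ge_of_tendsto' (conv (φ j) (Loc.locV hL) 0) fun n => avH_rp _ n hF hS
  refine ⟨lip_of_iter h, h1, h2, h3, h4, h5, fun S F G H hF hG hH a1 a2 a3 a4 => ?_,
    sub_of (lip_of_iter h) h1 h2 h5⟩
  refine le_of_tendsto_of_tendsto' ((ht S F hF).mul (ht S G hG)) ((ht S H hH).pow 2) fun j => ?_
  refine le_of_tendsto_of_tendsto'
    ((conv (φ j) (Loc.locV hF) 0).mul (conv (φ j) (Loc.locV hG) 0))
    ((conv (φ j) (Loc.locV hH) 0).pow 2) fun n => ?_
  rw [sq]
  exact avE_pl _ _ _ a1 a2 a3 a3 fun a ha b hb => a4 a b ha.1 hb.1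

end Vale.Agent.P153E
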