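import Vale.Agent.P153E.E8
import Vale.Agent.P153E.E9

/-! q j = avH N 0 n [k 0 = j]. q (-1-j) = q j (avE_flip, 0 ∈ hexA). q (j-1) q (j+1) ≤ q j ^ 2 (avE_pl). If q (j+1) > 0, j ≥ 0, then q j > 0 (lower k to x ↦ if 1 ≤ k x then k x - 1 else k x, stays in AdmE). By induction q (j+1) ≤ q j for j ≥ 0 (base q 0 = q (-1)).
∑_{j=0}^{N} 2 q j = 1, so 2 q j ≤ 1/(j+1); the event is the union of k 0 = j, k 0 = -1-j for N - r ≤ j ≤ N. -/

open MeasureTheory Filter Topology

noncomputable section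

namespace Vale.Agent.P153E

open Vale.Agent.P153

/-- The law of the height at the origin. -/
def F6_q (N n : ℕ) (j : ℤ) : ℝ := avH N 0 n fun k => if k 0 = j then 1 else 0

theorem F6_ind (p : Prop) [Decidable p] : (0 : ℝ) ≤ if p then 1 else 0 := by
  split_ifs
  · exact zero_le_one
  · exact le_rfl

theorem F6_nonneg (N n : ℕ) (j : ℤ) : 0 ≤ F6_q N n j :=
  (avE_const N _ _ 0).symm.le.trans (avE_mono fun _ _ => F6_ind _)

theorem F6_flip (N n : ℕ) (j : ℤ) : F6_q N n (-1 - j) = F6_q N n j := by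
  have h0 : (0 : ℤ × ℤ) ∈ hexA 0 (n + 1) := mem_hexA.2 (by simp [hx]; positivity)
  refine Eq.trans ?_ (avE_flip (cl_hex 0 n) fun k => if k 0 = j then 1 else 0)
  refine avE_congr fun k _ => ?_
  simp only [if_pos h0]
  by_cases h : k 0 = -1 - j
  · rw [if_pos h, if_pos (by omega)]
  · rw [if_neg h, if_neg (by omega)]

theorem F6_lc (N n : ℕ) (j : ℤ) :
    F6_q N n (j - 1) * F6_q N n (j + 1) ≤ F6_q N n j * F6_q N n j := by
  refine avE_pl N _ _ (fun _ => F6_ind _) (fun _ => F6_ind _) (fun _ => F6_ind _)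
    (fun _ => F6_ind _) fun a _ b _ => ?_
  dsimp only
  by_cases ha : a 0 = j - 1
  · by_cases hb : b 0 = j + 1
    · rw [if_pos ha, if_pos hb, if_pos (by omega), if_pos (by omega)]
    · rw [if_neg hb, mul_zero]
      exact mul_nonneg (F6_ind _) (F6_ind _)
  · rw [if_neg ha, zero_mul]
    exact mul_nonneg (F6_ind _) (F6_ind _)

theorem F6_low {a b : ℤ} (h : |a - b| ≤ 1) :
    |(if 1 ≤ a then a - 1 else a) - (if 1 ≤ b then b - 1 else b)| ≤ 1 := by
  rw [abs_le] at h ⊢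
  split_ifs <;> omega

theorem F6_pos (N n : ℕ) {j : ℤ} (hj : 0 ≤ j) (h : 0 < F6_q N n (j + 1)) : 0 < F6_q N n j := by
  have h1 : ∃ k ∈ AdmE N (hexA 0 n) (hexA 0 (n + 1)), k 0 = j + 1 := by
    by_contra hn
    have h2 : F6_q N n (j + 1) = 0 :=
      (avE_congr fun k hk => if_neg fun e => hn ⟨k, hk, e⟩).trans (avE_const N _ _ 0)
    exact h.ne' h2
  obtain ⟨k, hk, e⟩ := h1
  have h2 : (fun x => if 1 ≤ k x then k x - 1 else k x) ∈
      AdmE N (hexA 0 n) (hexA 0 (n + 1)) := by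
    refine ⟨fun x => ⟨F6_low (hk.1 x).1, F6_low (hk.1 x).2.1, F6_low (hk.1 x).2.2⟩, fun x => ?_,
      fun x hx => ?_, fun x hx => ?_⟩
    · have := hk.2.1 x
      dsimp only
      split_ifs <;> omega
    · have := hk.2.2.1 x hx
      dsimp only
      split_ifs <;> omega
    · have := hk.2.2.2 x hx
      dsimp only
      split_ifs <;> omega
  refine div_pos (Finset.sum_pos' (fun _ _ => F6_ind _) ⟨_, mem_admE.2 h2, ?_⟩)
    (Nat.cast_pos.2 (card_admE _ _ _))
  rw [if_pos (by rw [if_pos (by omega)]; omega)]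
  exact one_pos

theorem F6_step (N n j : ℕ) : F6_q N n j ≤ F6_q N n ((j : ℤ) - 1) := by
  induction j with
  | zero => exact (F6_flip N n 0).symm.le
  | succ j ih =>
    rw [Nat.cast_succ, add_sub_cancel_right]
    rcases (F6_nonneg N n ((j : ℤ) + 1)).eq_or_lt with h | h
    · rw [← h]
      exact F6_nonneg N n j
    · have h1 := F6_pos N n (Int.natCast_nonneg j) h
      have h2 := F6_lc N n j
      have h3 : F6_q N n j * F6_q N n ((j : ℤ) + 1) ≤ F6_q N n j * F6_q N n j :=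
        (mul_le_mul_of_nonneg_right ih h.le).trans h2
      exact le_of_mul_le_mul_left h3 h1

theorem F6_anti (N n : ℕ) : Antitone fun j : ℕ => F6_q N n j := by
  refine antitone_nat_of_succ_le fun j => ?_
  have h := F6_step N n (j + 1)
  rwa [Nat.cast_succ, add_sub_cancel_right, ← Nat.cast_succ] at h

theorem F6_ab (N n j : ℕ) :
    avH N 0 n (fun k => if ab (k 0) = j then 1 else 0) = 2 * F6_q N n j := by
  rw [two_mul]
  nth_rewrite 2 [← F6_flip N n j]
  refine Eq.trans (avE_congr fun k _ => ?_) (avE_add N _ _ _ _)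
  unfold ab
  split_ifs <;> first | omega | norm_num

theorem F6_one (t : ℤ) (s : Finset ℕ) :
    ∑ i ∈ s, (if ab t = (i : ℤ) then (1 : ℝ) else 0) = if (ab t).toNat ∈ s then 1 else 0 := by
  rw [← Finset.sum_ite_eq s (ab t).toNat fun _ => (1 : ℝ)]
  refine Finset.sum_congr rfl fun i _ => ?_
  have h : 0 ≤ ab t := by
    unfold ab
    omega
  by_cases e : ab t = i
  · rw [if_pos e, if_pos (by omega)]
  · rw [if_neg e, if_neg (by omega)]

theorem F6_le (N n j : ℕ) : 2 * F6_q N n j ≤ 1 / ((j : ℝ) + 1) := by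
  have h1 : ∑ i ∈ Finset.range (j + 1), 2 * F6_q N n i ≤ 1 := by
    simp only [← F6_ab]
    refine (avE_sum N _ _ _ _).symm.le.trans
      ((avE_mono fun k _ => ?_).trans (avE_const N _ _ 1).le)
    rw [F6_one]
    split_ifs
    · exact le_rfl
    · exact zero_le_one
  have h2 : ∑ _i ∈ Finset.range (j + 1), 2 * F6_q N n j ≤
      ∑ i ∈ Finset.range (j + 1), 2 * F6_q N n i :=
    Finset.sum_le_sum fun i hi => mul_le_mul_of_nonneg_left
      (F6_anti N n (Nat.lt_succ_iff.1 (Finset.mem_range.1 hi))) zero_le_two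
  rw [Finset.sum_const, Finset.card_range, nsmul_eq_mul, Nat.cast_succ] at h2
  rw [le_div_iff₀ (by positivity)]
  linarith

theorem tail (N n r : ℕ) (hr : r ≤ N) :
    avH N 0 n (fun k => if (N : ℤ) - r ≤ ab (k 0) then 1 else 0) ≤ (r + 1) / ((N : ℝ) - r + 1) := by
  obtain ⟨M, rfl⟩ := Nat.exists_eq_add_of_le' hr
  have h1 : avH (M + r) 0 n (fun k => if ((M + r : ℕ) : ℤ) - r ≤ ab (k 0) then 1 else 0) ≤
      ∑ i ∈ Finset.Icc M (M + r), 2 * F6_q (M + r) n i := by
    simp only [← F6_ab]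
    refine (avE_mono fun k hk => ?_).trans (avE_sum (M + r) _ _ _ _).le
    rw [F6_one]
    have h2 := hk.2.1 0
    by_cases h : ((M + r : ℕ) : ℤ) - r ≤ ab (k 0)
    · rw [if_pos h, if_pos]
      rw [Finset.mem_Icc]
      unfold ab at h ⊢
      omega
    · rw [if_neg h]
      exact F6_ind _
  have h2 : ∑ i ∈ Finset.Icc M (M + r), 2 * F6_q (M + r) n i ≤
      ∑ _i ∈ Finset.Icc M (M + r), 1 / ((M : ℝ) + 1) :=
    Finset.sum_le_sum fun i hi => (mul_le_mul_of_nonneg_left
      (F6_anti (M + r) n (Finset.mem_Icc.1 hi).1) zero_le_two).trans (F6_le _ _ _)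
  refine (h1.trans h2).trans (le_of_eq ?_)
  rw [Finset.sum_const, Nat.card_Icc, show M + r + 1 - M = r + 1 by omega, nsmul_eq_mul,
    Nat.cast_succ, Nat.cast_add, add_sub_cancel_right, mul_one_div]

end Vale.Agent.P153E
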