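import Vale.Agent.P153E.F4
import Vale.Agent.P153E.F6

/-! Take r ≥ |η x|, |η' x| on S. For T ⊆ hexA 0 n the map k ↦ k + (η' - η) is a bijection from {k ∈ AdmE, k - k 0 = η on S, ab (k 0) < N - r} onto the same set for η' (edges touching T lie in S, lip_iff; 0 ∉ T; `Finset.sum_nbij'` or card_nbij'), so
|avH (pat S η) - avH (pat S η')| ≤ tail ≤ (r+1)/(N-r+1) → 0 along φ (`StrictMono.tendsto_atTop`). -/

open MeasureTheory Filter Topology

noncomputable section

namespace Vale.Agent.P153E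

open Vale.Agent.P153

theorem F7_mem {N r : ℕ} {D L S T : Finset (ℤ × ℤ)} {η η' k : Cfg} (hD : T ⊆ D) (hL : D ⊆ L)
    (hη : Lip η') (he : ∀ x, x ∉ T → η x = η' x)
    (hS : ∀ x ∈ T, ∀ y, hx (y - x) ≤ 1 → y ∈ S) (hr : ∀ x ∈ S, |η' x| ≤ r)
    (hk : k ∈ AdmE N D L) (hp : ∀ x ∈ S, k x - k 0 = η x) (h0 : ab (k 0) < (N : ℤ) - r) :
    (fun x => k x + (η' x - η x)) ∈ AdmE N D L := by
  have hT : ∀ x ∈ T, x ∈ S := fun x hx' => hS x hx' x (by simp [hx])
  have hoff : ∀ x, x ∉ T → k x + (η' x - η x) = k x := fun x h => by rw [he x h]; ring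
  have hon : ∀ x ∈ S, k x + (η' x - η x) = k 0 + η' x := fun x h => by
    have := hp x h
    omega
  refine ⟨lip_iff.2 fun x y hxy => ?_, fun x => ?_, fun x h => ?_, fun x h => ?_⟩
  · by_cases h : x ∈ T ∨ y ∈ T
    · have h2 : x ∈ S ∧ y ∈ S := by
        rcases h with h | h
        · exact ⟨hT x h, hS x h y hxy⟩
        · refine ⟨hS y h x ?_, hT y h⟩
          rw [← hx_neg, neg_sub]
          exact hxy
      have := lip_iff.1 hη x y hxy
      show |k y + (η' y - η y) - (k x + (η' x - η x))| ≤ 1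
      rw [hon x h2.1, hon y h2.2, add_sub_add_left_eq_sub]
      exact this
    · rw [not_or] at h
      show |k y + (η' y - η y) - (k x + (η' x - η x))| ≤ 1
      rw [hoff x h.1, hoff y h.2]
      exact lip_iff.1 hk.1 x y hxy
  · show -((N : ℤ) + 1) ≤ k x + (η' x - η x) ∧ k x + (η' x - η x) ≤ N
    by_cases h : x ∈ T
    · rw [hon x (hT x h)]
      have := abs_le.1 (hr x (hT x h))
      have h1 := lt_of_le_of_lt (le_max_left _ _) h0
      have h2 := lt_of_le_of_lt (le_max_right _ _) h0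
      omega
    · rw [hoff x h]
      exact hk.2.1 x
  · show k x + (η' x - η x) = 0 ∨ k x + (η' x - η x) = -1
    rw [hoff x fun h' => h (hD h')]
    exact hk.2.2.1 x h
  · show k x + (η' x - η x) = 0
    rw [hoff x fun h' => h (hL (hD h'))]
    exact hk.2.2.2 x h

open Classical in
theorem F7_av {N r : ℕ} {D L S T : Finset (ℤ × ℤ)} {η η' : Cfg} (hD : T ⊆ D) (hL : D ⊆ L)
    (hη : Lip η') (h0 : 0 ∉ T) (he : ∀ x, x ∉ T → η x = η' x)
    (hS : ∀ x ∈ T, ∀ y, hx (y - x) ≤ 1 → y ∈ S) (hr : ∀ x ∈ S, |η' x| ≤ r) :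
    avE N D L (pat S η) ≤ avE N D L (pat S η') +
      avE N D L (fun k => if (N : ℤ) - r ≤ ab (k 0) then 1 else 0) := by
  have h1 : avE N D L (pat S η) ≤ avE N D L (fun k =>
      (if (∀ x ∈ S, k x - k 0 = η x) ∧ ab (k 0) < (N : ℤ) - r then (1 : ℝ) else 0) +
        if (N : ℤ) - r ≤ ab (k 0) then 1 else 0) := by
    refine avE_mono fun k _ => ?_
    unfold pat
    by_cases h : (N : ℤ) - r ≤ ab (k 0)
    · rw [if_pos h]
      split_ifs <;> norm_num
    · rw [if_neg h]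
      by_cases h' : ∀ x ∈ S, k x - k 0 = η x
      · rw [if_pos h', if_pos ⟨h', not_le.1 h⟩]
        norm_num
      · rw [if_neg h', if_neg fun hh => h' hh.1]
        norm_num
  rw [avE_add] at h1
  refine h1.trans (add_le_add_left ?_ _)
  unfold avE pat
  refine div_le_div_of_nonneg_right ?_ (Nat.cast_nonneg _)
  rw [Finset.sum_boole, Finset.sum_boole, Nat.cast_le]
  refine Finset.card_le_card_of_injOn (fun k x => k x + (η' x - η x)) ?_ ?_
  · intro k hk
    rw [Finset.mem_coe, Finset.mem_filter] at hk ⊢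
    refine ⟨mem_admE.2 (F7_mem hD hL hη he hS hr (mem_admE.1 hk.1) hk.2.1 hk.2.2), fun x h => ?_⟩
    have h2 := hk.2.1 x h
    have h3 := he 0 h0
    show k x + (η' x - η x) - (k 0 + (η' 0 - η 0)) = η' x
    omega
  · intro k _ k' _ e
    funext x
    exact add_right_cancel (congrFun e x)

theorem F7_le {P : Measure Cfg} (h : IsIter P) {S T : Finset (ℤ × ℤ)} {η η' : Cfg}
    (hη : Lip η') (h0 : 0 ∉ T) (he : ∀ x, x ∉ T → η x = η' x)
    (hS : ∀ x ∈ T, ∀ y, hx (y - x) ≤ 1 → y ∈ S) :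
    P.real {k | ∀ x ∈ S, k x = η x} ≤ P.real {k | ∀ x ∈ S, k x = η' x} := by
  obtain ⟨φ, hφ, H⟩ := h
  obtain ⟨a, ha, ha'⟩ := H S η
  obtain ⟨b, hb, hb'⟩ := H S η'
  obtain ⟨r, hr⟩ : ∃ r : ℕ, ∀ x ∈ S, |η' x| ≤ r := by
    refine ⟨S.sup fun x => (η' x).natAbs, fun x hx' => ?_⟩
    rw [← Int.natCast_natAbs, Nat.cast_le]
    exact Finset.le_sup (f := fun x => (η' x).natAbs) hx'
  have h1 : ∀ N, r ≤ N → a N ≤ b N + (r + 1) / ((N : ℝ) - r + 1) := by
    intro N hN
    refine le_of_tendsto_of_tendsto (ha N) ((hb N).add_const _) ?_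
    filter_upwards [ev_sub 0 T] with n hn
    rw [confP_eq, confP_eq]
    exact (F7_av hn (cl_hex 0 n).subset hη h0 he hS hr).trans
      (add_le_add_right (tail N n r hN) _)
  have h2 : Tendsto (fun j => ((r : ℝ) + 1) / ((φ j : ℝ) - r + 1)) atTop (𝓝 0) := by
    refine Tendsto.div_atTop tendsto_const_nhds ?_
    refine tendsto_atTop_add_const_right _ _ (tendsto_atTop_add_const_right _ (-(r : ℝ)) ?_)
    exact tendsto_natCast_atTop_atTop.comp hφ.tendsto_atTop
  have h3 := hb'.add h2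
  rw [add_zero] at h3
  refine le_of_tendsto_of_tendsto ha' h3 ?_
  filter_upwards [hφ.tendsto_atTop.eventually_ge_atTop r] with j hj
  exact h1 _ hj

theorem gibbs_of_iter {P : Measure Cfg} [IsProbabilityMeasure P] (h : IsIter P) : Gibbs P :=
  ⟨lip_of_iter h, fun _ _ _ _ h1 h2 h0 he hS => le_antisymm (F7_le h h2 h0 he hS)
    (F7_le h h1 h0 (fun x hx' => (he x hx').symm) hS)⟩

end Vale.Agent.P153E
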