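import Vale.Agent.P153E.F3
import Vale.Agent.P153E.F5
import Vale.Agent.P153E.F7
import Vale.Agent.P153.Main

/-! Assembly. -/

open MeasureTheory Filter Topology

noncomputable section

namespace Vale.Agent.P153E

open Vale.Agent.P153

theorem int_pat (P : Measure Cfg) (y : ℤ × ℤ) (S : Finset (ℤ × ℤ)) (η : Cfg) :
    ∫ k, pat S η (fun x => k (x + y)) ∂P = P.real {k | ∀ x ∈ S, k (x + y) - k y = η x} := by
  have hm : MeasurableSet {k : Cfg | ∀ x ∈ S, k (x + y) - k y = η x} := by
    have e : {k : Cfg | ∀ x ∈ S, k (x + y) - k y = η x} =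
        ⋂ x ∈ S, (fun k : Cfg => k (x + y) - k y) ⁻¹' {η x} := by
      ext k; simp
    rw [e]
    exact S.measurableSet_biInter fun x _ =>
      ((measurable_pi_apply (x + y)).sub (measurable_pi_apply y)) (measurableSet_singleton _)
  rw [← integral_indicator_one hm]
  refine integral_congr_ae (Eventually.of_forall fun k => ?_)
  by_cases h : ∀ x ∈ S, k (x + y) - k y = η x
  · rw [Set.indicator_of_mem (by exact h)]
    exact if_pos (by simpa only [zero_add] using h)
  · rw [Set.indicator_of_notMem (by exact h)]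
    exact if_neg (by simpa only [zero_add] using h)

theorem shift_of_good {P : Measure Cfg} (hG : Good P) (y : ℤ × ℤ) (S : Finset (ℤ × ℤ)) (η : Cfg) :
    P.real {k | ∀ x ∈ S, k (x + y) - k y = η x} = P.real {k | ∀ x ∈ S, k x - k 0 = η x} := by
  have h1 := int_pat P 0 S η
  simp only [add_zero] at h1
  rw [← int_pat, ← h1]
  exact hG.shift _ _ (loc_pat S η) y

end Vale.Agent.P153E
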