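import Vale.Agent.P153.Stmt

/-! Confined Lipschitz functions and their iterated infinite volume limit. The odd height is
`h = 2 k + 1`, so `k ∈ {0, -1}` means `h = ± 1` and `-(N + 1) ≤ k ≤ N` means `|h| ≤ 2 N + 1`. -/

open MeasureTheory Filter Topology

noncomputable section

namespace Vale.Agent.P153E

open Vale.Agent.P153

/-- Lipschitz functions with `-(N + 1) ≤ k ≤ N`, with values in `{0, -1}` outside the hexagon of
radius `n`, and zero outside the hexagon of radius `n + 1`. -/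
def Conf (N n : ℕ) : Set Cfg :=
  {k | Lip k ∧ (∀ x, -((N : ℤ) + 1) ≤ k x ∧ k x ≤ N) ∧
    (∀ x, (n : ℤ) < hx x → k x = 0 ∨ k x = -1) ∧ ∀ x, (n : ℤ) + 1 < hx x → k x = 0}

/-- Probability, under the uniform measure on `Conf N n`, that `k - k 0` equals `η` on `S`. -/
def confP (N n : ℕ) (S : Finset (ℤ × ℤ)) (η : Cfg) : ℝ :=
  ({k ∈ Conf N n | ∀ x ∈ S, k x - k 0 = η x}.ncard : ℝ) / (Conf N n).ncard

/-- `P` is a limit of the law of `k - k 0`, first `n → ∞`, then `N → ∞` along a subsequence. -/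
def IsIter (P : Measure Cfg) : Prop :=
  ∃ φ : ℕ → ℕ, StrictMono φ ∧ ∀ (S : Finset (ℤ × ℤ)) (η : Cfg), ∃ a : ℕ → ℝ,
    (∀ N, Tendsto (fun n => confP N n S η) atTop (𝓝 (a N))) ∧
    Tendsto (fun j => a (φ j)) atTop (𝓝 (P.real {k | ∀ x ∈ S, k x = η x}))

/-- The Gibbs property of the uniform model: `P` is carried by Lipschitz functions vanishing at the
origin, and two Lipschitz functions which differ only on a finite set `T` have the same
probability on any finite set `S` containing `T` and its neighbours. -/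
def Gibbs (P : Measure Cfg) : Prop :=
  (∀ᵐ k ∂P, Lip k ∧ k 0 = 0) ∧
  ∀ (S T : Finset (ℤ × ℤ)) (η η' : Cfg), Lip η → Lip η' → 0 ∉ T → (∀ x, x ∉ T → η x = η' x) →
    (∀ x ∈ T, ∀ y, hx (y - x) ≤ 1 → y ∈ S) →
    P.real {k | ∀ x ∈ S, k x = η x} = P.real {k | ∀ x ∈ S, k x = η' x}

end Vale.Agent.P153E
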